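import Vale.Agent.P183L.Tab

/-! Programs. -/

namespace Vale.Agent.P183L.Tab

theorem fix0 : tt 0 0 = 0 := by decide +kernel
theorem fix1 : tt 1 0 = 0 := by decide +kernel
theorem run1 : runP tt cc N prog1 [term 1, 0] = Z1 := by decide +kernel
theorem run2 : runP tt cc N prog2 [term 2, 0] = Z2 := by decide +kernel
theorem run3 : runP tt cc N prog3 [term 3, 0] = Z3 := by decide +kernel
theorem run4 : runP tt cc N prog4 [term 4, 0] = Z4 := by decide +kernel
theorem run5 : runP tt cc N prog5 [term 5, 0] = Z5 := by decide +kernel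
theorem term6 : term 6 = tt 2 0 := by decide +kernel
theorem termChk : allR (fun K => and (Nat.beq (rT (term K)) K) (Nat.ble (Nat.add (term K) 1) N)) 0 7 = true := by decide +kernel

end Vale.Agent.P183L.Tab
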