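import Vale.Agent.P183L.Small

/-!
Reduction of an arbitrary lattice with `n` elements to a finite list of order tables.
-/

namespace Vale.Agent.P183L.Small

open Vale.Agent.P183

universe u

/-- The order table coded by the bits of a number. -/
def tblB (n bits a b : ℕ) : Bool :=
  Nat.beq (Nat.land (Nat.shiftRight bits (Nat.add (Nat.mul a n) b)) 1) 1

/-- The order table attached to the code `c`: the first element is the least one, the last element
is the greatest one, and the bits of `c` give the relations between the others. -/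
def tblC (n : ℕ) (pidx : ℕ → ℕ → ℕ) (c a b : ℕ) : Bool :=
  or (Nat.beq a b) (or (Nat.beq a 0) (or (Nat.beq (Nat.add b 1) n)
    (and (Nat.ble (Nat.add a 1) b) (Nat.testBit c (pidx a b)))))

/-- A table failing transitivity at a triple. -/
def transFail (n : ℕ) (t : ℕ → ℕ → Bool) (a b d : ℕ) : Bool :=
  and (Nat.ble (Nat.add a 1) n) (and (Nat.ble (Nat.add b 1) n) (and (Nat.ble (Nat.add d 1) n)
    (and (t a b) (and (t b d) (not (t a d))))))

/-- A table where the pair `a`, `b` has no join. -/
noncomputable def lubFail (n : ℕ) (t : ℕ → ℕ → Bool) (a b : ℕ) : Bool :=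
  and (Nat.ble (Nat.add a 1) n) (and (Nat.ble (Nat.add b 1) n)
    (allB n (fun x => not (isLubB t n a b x))))

/-- The table `t` is the table with bits `bits` after the permutation `π`. -/
noncomputable def isoChk (n : ℕ) (t : ℕ → ℕ → Bool) (bits : ℕ) (π : ℕ → ℕ) : Bool :=
  and (allB n (fun a => Nat.ble (Nat.add (π a) 1) n))
    (and (allB n (fun a => allB n (fun b => or (not (Nat.beq (π a) (π b))) (Nat.beq a b))))
      (allB n (fun a => allB n (fun b => eqB (t a b) (tblB n bits (π a) (π b))))))

/-- The entry of a code. -/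
noncomputable def entryOK (n : ℕ) (pidx : ℕ → ℕ → ℕ) (bases : List ℕ) (c : ℕ) (ent : List ℕ) : Bool :=
  cond (Nat.beq (gd ent 0) 0)
    (and (Nat.ble (Nat.add (gd ent 1) 1) bases.length)
      (isoChk n (tblC n pidx c) (gd bases (gd ent 1)) (fun x => gd ent (Nat.add x 2))))
    (cond (Nat.beq (gd ent 0) 1)
      (transFail n (tblC n pidx c) (gd ent 1) (gd ent 2) (gd ent 3))
      (lubFail n (tblC n pidx c) (gd ent 1) (gd ent 2)))

theorem exists_linext (L : Type u) [PartialOrder L] [Finite L] :
    ∃ e : L ≃ Fin (Nat.card L), ∀ x y, x ≤ y → e x ≤ e y := by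
  classical
  have : Fintype L := Fintype.ofFinite L
  have : Fintype (LinearExtension L) := inferInstanceAs (Fintype L)
  have hc : Fintype.card (LinearExtension L) = Nat.card L := by
    rw [Nat.card_eq_fintype_card]
    exact Fintype.card_congr (Equiv.refl L)
  let iso := Fintype.orderIsoFinOfCardEq (LinearExtension L) hc
  let e : L ≃ Fin (Nat.card L) := (Equiv.refl L).trans iso.symm.toEquiv
  refine ⟨e, fun x y hxy => ?_⟩
  have h1 : toLinearExtension x ≤ toLinearExtension y := toLinearExtension.monotone hxy
  exact iso.symm.monotone h1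

theorem rep_of_classify {L : Type u} [Lattice L] [Finite L] {n N : ℕ} (pidx : ℕ → ℕ → ℕ)
    (pa pb : ℕ → ℕ) (bases : List ℕ) (entries : List (List ℕ)) (hn : 2 ≤ n)
    (hp : ∀ a b, 1 ≤ a → a < b → b + 1 < n → pidx a b < N ∧ pa (pidx a b) = a ∧ pb (pidx a b) = b)
    (hchk : allB (2 ^ N) (fun c => entryOK n pidx bases c (entries.getD c [])) = true)
    (hbase : ∀ i, i < bases.length → ∀ e : L ≃ Fin n,
      (∀ x y : L, x ≤ y ↔ tblB n (gd bases i) (e x) (e y) = true) → Representable L)
    (hcard : Nat.card L = n) : Representable L := by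
  classical
  subst hcard
  obtain ⟨e0, hmono⟩ := exists_linext L
  let n := Nat.card L
  have hnpos : 0 < n := by omega
  let i0 : Fin n := ⟨0, hnpos⟩
  let i1 : Fin n := ⟨n - 1, by omega⟩
  -- the order table of `L`
  let t0 : ℕ → ℕ → Bool := fun a b =>
    decide (∃ (ha : a < n) (hb : b < n), e0.symm ⟨a, ha⟩ ≤ e0.symm ⟨b, hb⟩)
  have t0_iff : ∀ (a b : Fin n), t0 a.val b.val = true ↔ e0.symm a ≤ e0.symm b := by
    intro a b
    simp only [t0, decide_eq_true_eq]
    constructor
    · rintro ⟨_, _, h⟩
      exact h
    · intro h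
      exact ⟨a.isLt, b.isLt, h⟩
  have t0_le : ∀ x y : L, x ≤ y ↔ t0 (e0 x).val (e0 y).val = true := by
    intro x y
    rw [t0_iff]
    simp
  -- least and greatest elements
  have hbot : ∀ y : L, e0.symm i0 ≤ y := by
    obtain ⟨z, hz⟩ : ∃ z : L, ∀ y, z ≤ y := by
      have : Nonempty L := ⟨e0.symm i0⟩
      have := Fintype.ofFinite L
      exact ⟨(Finset.univ : Finset L).inf' ⟨e0.symm i0, Finset.mem_univ _⟩ id,
        fun y => Finset.inf'_le id (Finset.mem_univ y)⟩
    have h1 := hmono z (e0.symm i0) (hz _)
    simp only [Equiv.apply_symm_apply] at h1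
    have h2 : e0 z = i0 := Fin.ext (by
      have : (e0 z).val ≤ 0 := h1
      show (e0 z).val = 0
      omega)
    have h3 : z = e0.symm i0 := by rw [← h2]; simp
    rw [← h3]
    exact hz
  have htop : ∀ y : L, y ≤ e0.symm i1 := by
    obtain ⟨z, hz⟩ : ∃ z : L, ∀ y, y ≤ z := by
      have : Nonempty L := ⟨e0.symm i0⟩
      have := Fintype.ofFinite L
      exact ⟨(Finset.univ : Finset L).sup' ⟨e0.symm i0, Finset.mem_univ _⟩ id,
        fun y => Finset.le_sup' id (Finset.mem_univ y)⟩
    have h1 := hmono (e0.symm i1) z (hz _)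
    simp only [Equiv.apply_symm_apply] at h1
    have h2 : e0 z = i1 := Fin.ext (by
      have h3 : n - 1 ≤ (e0 z).val := h1
      have h4 := (e0 z).isLt
      show (e0 z).val = n - 1
      omega)
    have h3 : z = e0.symm i1 := by rw [← h2]; simp
    rw [← h3]
    exact hz
  -- the code of the table
  let c : ℕ := Nat.ofBits (fun k : Fin N => t0 (pa k.val) (pb k.val))
  have hc : c < 2 ^ N := Nat.ofBits_lt_two_pow _
  have ht : ∀ a b, (ha : a < n) → (hb : b < n) → tblC n pidx c a b = t0 a b := by
    intro a b ha hb
    unfold tblC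
    by_cases h1 : a = b
    · subst h1
      have : Nat.beq a a = true := Nat.beq_refl a
      rw [this]
      have h2 : t0 a a = true := (t0_iff ⟨a, ha⟩ ⟨a, ha⟩).2 le_rfl
      rw [h2]
      rfl
    have h1' : Nat.beq a b = false := by
      cases h' : Nat.beq a b with
      | false => rfl
      | true => exact absurd (Nat.eq_of_beq_eq_true h') h1
    rw [h1']
    by_cases h2 : a = 0
    · subst h2
      have : Nat.beq 0 0 = true := rfl
      rw [this]
      have h3 : t0 0 b = true := (t0_iff i0 ⟨b, hb⟩).2 (hbot _)
      rw [h3]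
      rfl
    have h2' : Nat.beq a 0 = false := by
      cases h' : Nat.beq a 0 with
      | false => rfl
      | true => exact absurd (Nat.eq_of_beq_eq_true h') h2
    rw [h2']
    by_cases h3 : b + 1 = n
    · have h3' : Nat.beq (Nat.add b 1) n = true := by
        show Nat.beq (b + 1) n = true
        rw [h3]
        exact Nat.beq_refl n
      rw [h3']
      have hb1 : b = n - 1 := by omega
      have h4 : t0 a b = true := by
        have := (t0_iff ⟨a, ha⟩ i1).2 (htop _)
        rw [hb1]
        exact this
      rw [h4]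
      rfl
    have h3' : Nat.beq (Nat.add b 1) n = false := by
      cases h' : Nat.beq (Nat.add b 1) n with
      | false => rfl
      | true => exact absurd (Nat.eq_of_beq_eq_true h') h3
    rw [h3']
    by_cases h4 : a < b
    · have h4' : Nat.ble (Nat.add a 1) b = true := Nat.ble_eq_true_of_le h4
      rw [h4']
      obtain ⟨h5, h6, h7⟩ := hp a b (by omega) h4 (by omega)
      have h8 : Nat.testBit c (pidx a b) = t0 a b := by
        have := Nat.testBit_ofBits_lt (fun k : Fin N => t0 (pa k.val) (pb k.val)) (pidx a b) h5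
        simp only [h6, h7] at this
        exact this
      rw [h8]
      rfl
    · have h4' : Nat.ble (Nat.add a 1) b = false := by
        cases h' : Nat.ble (Nat.add a 1) b with
        | false => rfl
        | true =>
          have : a + 1 ≤ b := Nat.le_of_ble_eq_true h'
          omega
      rw [h4']
      have h5 : t0 a b = false := by
        cases h' : t0 a b with
        | false => rfl
        | true =>
          have h6 := (t0_iff ⟨a, ha⟩ ⟨b, hb⟩).1 h'
          have h7 := hmono _ _ h6
          simp only [Equiv.apply_symm_apply] at h7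
          have h8 : a ≤ b := h7
          omega
      rw [h5]
      rfl
  -- the entry of the code
  have hent := allB_spec hchk c hc
  unfold entryOK at hent
  generalize entries.getD c [] = ent at hent
  cases h0 : Nat.beq (gd ent 0) 0 with
  | true =>
    rw [h0] at hent
    simp only [cond_true] at hent
    obtain ⟨hi, hiso⟩ := Bool.and_eq_true_iff.1 hent
    have hi' : gd ent 1 < bases.length := Nat.le_of_ble_eq_true hi
    unfold isoChk at hiso
    obtain ⟨h1, h2⟩ := Bool.and_eq_true_iff.1 hiso
    obtain ⟨h2, h3⟩ := Bool.and_eq_true_iff.1 h2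
    let π : ℕ → ℕ := fun x => gd ent (Nat.add x 2)
    have hπ : ∀ a, a < n → π a < n := fun a ha => Nat.le_of_ble_eq_true (allB_spec h1 a ha)
    let p : Fin n → Fin n := fun a => ⟨π a.val, hπ a.val a.isLt⟩
    have hpinj : Function.Injective p := by
      intro a b hab
      have h4 : π a.val = π b.val := congrArg Fin.val hab
      have h5 := allB_spec (allB_spec h2 a.val a.isLt) b.val b.isLt
      have h6 : Nat.beq (π a.val) (π b.val) = true := by
        rw [h4]
        exact Nat.beq_refl _
      have h5' : or (not (Nat.beq (π a.val) (π b.val))) (Nat.beq a.val b.val) = true := h5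
      rw [h6] at h5'
      exact Fin.ext (Nat.eq_of_beq_eq_true h5')
    have hpbij := Finite.injective_iff_bijective.1 hpinj
    let e' : L ≃ Fin n := e0.trans (Equiv.ofBijective p hpbij)
    refine hbase _ hi' e' ?_
    intro x y
    rw [t0_le]
    have h4 := allB_spec (allB_spec h3 (e0 x).val (e0 x).isLt) (e0 y).val (e0 y).isLt
    have h5 := eqB_spec h4
    rw [ht _ _ (e0 x).isLt (e0 y).isLt] at h5
    rw [h5]
    rfl
  | false =>
    rw [h0] at hent
    simp only [cond_false] at hent
    exfalso
    cases h1 : Nat.beq (gd ent 0) 1 with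
    | true =>
      rw [h1] at hent
      simp only [cond_true] at hent
      unfold transFail at hent
      simp only [Bool.and_eq_true] at hent
      obtain ⟨ha, hb, hd, h2, h3, h4⟩ := hent
      have ha' : gd ent 1 < n := Nat.le_of_ble_eq_true ha
      have hb' : gd ent 2 < n := Nat.le_of_ble_eq_true hb
      have hd' : gd ent 3 < n := Nat.le_of_ble_eq_true hd
      rw [ht _ _ ha' hb'] at h2
      rw [ht _ _ hb' hd'] at h3
      rw [ht _ _ ha' hd'] at h4
      have h5 := (t0_iff ⟨_, ha'⟩ ⟨_, hb'⟩).1 h2
      have h6 := (t0_iff ⟨_, hb'⟩ ⟨_, hd'⟩).1 h3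
      have h7 := (t0_iff ⟨_, ha'⟩ ⟨_, hd'⟩).2 (h5.trans h6)
      simp only at h7
      rw [h7] at h4
      simp at h4
    | false =>
      rw [h1] at hent
      simp only [cond_false] at hent
      unfold lubFail at hent
      simp only [Bool.and_eq_true] at hent
      obtain ⟨ha, hb, h2⟩ := hent
      have ha' : gd ent 1 < n := Nat.le_of_ble_eq_true ha
      have hb' : gd ent 2 < n := Nat.le_of_ble_eq_true hb
      let s : L := e0.symm ⟨_, ha'⟩ ⊔ e0.symm ⟨_, hb'⟩
      have h3 := allB_spec h2 (e0 s).val (e0 s).isLt
      have h4 : isLubB (tblC n pidx c) n (gd ent 1) (gd ent 2) (e0 s).val = true := by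
        unfold isLubB allB
        rw [allR_iff]
        intro k hk
        have hk' : 0 + k < n := by omega
        apply eqB_of_iff
        rw [ht _ _ (e0 s).isLt hk', ht _ _ ha' hk', ht _ _ hb' hk']
        have e1 := t0_iff (e0 s) ⟨0 + k, hk'⟩
        have e2 := t0_iff ⟨_, ha'⟩ ⟨0 + k, hk'⟩
        have e3 := t0_iff ⟨_, hb'⟩ ⟨0 + k, hk'⟩
        simp only at e1 e2 e3
        rw [e1, e2, e3]
        simp only [Equiv.symm_apply_apply]
        exact sup_le_iff
      rw [h4] at h3
      simp at h3

end Vale.Agent.P183L.Small
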