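import Vale.Agent.P183.Defs

/-!
Certificates for the representability of a finite lattice by a unary algebra on `Fin N`:
involutions on `Fin N` with a connected graph, labelled block systems indexed by the lattice.
-/

namespace Vale.Agent.P183L

open Vale.Agent.P183

/-- All arities equal to one. -/
def arU (k : ℕ) : Fin k → ℕ := fun _ => 1

/-- The operations of a unary algebra. -/
def opU {A : Type} {k : ℕ} (f : Fin k → A → A) : ∀ i, (Fin (arU k i) → A) → A :=
  fun i x => f i (x ⟨0, Nat.one_pos⟩)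

theorem isCongruence_iff {A : Type} {k : ℕ} (f : Fin k → A → A) (θ : Setoid A) :
    IsCongruence (arU k) (opU f) θ ↔ ∀ i x y, θ x y → θ (f i x) (f i y) := by
  constructor
  · intro h i x y hxy
    have := h i (fun _ => x) (fun _ => y) (fun _ => hxy)
    simpa [opU] using this
  · intro h i x y hxy
    exact h i _ _ (hxy _)

section Core

variable {L : Type} [Lattice L] [Finite L] {N k : ℕ} (hN : 0 < N) (f : Fin k → Fin N → Fin N)

/-- Invariant equivalences agree as soon as one base class is contained in the other. -/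
theorem agree (hinv : ∀ i x, f i (f i x) = x)
    (hconn : ∀ x : Fin N, x.val ≠ 0 → ∃ i, (f i x).val < x.val)
    (θ θ' : Setoid (Fin N))
    (hθ : ∀ i x y, θ x y → θ (f i x) (f i y))
    (hθ' : ∀ i x y, θ' x y → θ' (f i x) (f i y))
    (hbase : ∀ y, θ ⟨0, hN⟩ y → θ' ⟨0, hN⟩ y) :
    ∀ x y, θ x y → θ' x y := by
  have key : ∀ n : ℕ, ∀ x : Fin N, x.val = n → ∀ y, θ x y → θ' x y := by
    intro n
    induction n using Nat.strong_induction_on with
    | _ n ih =>
      intro x hx y hxy
      by_cases h0 : x.val = 0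
      · have : x = ⟨0, hN⟩ := Fin.ext h0
        subst this
        exact hbase y hxy
      · obtain ⟨i, hi⟩ := hconn x h0
        have h1 := ih (f i x).val (by omega) (f i x) rfl (f i y) (hθ i x y hxy)
        have h2 := hθ' i _ _ h1
        rwa [hinv, hinv] at h2
  intro x y
  exact key x.val x rfl y

theorem representable_of_core
    (hinv : ∀ i x, f i (f i x) = x)
    (hconn : ∀ x : Fin N, x.val ≠ 0 → ∃ i, (f i x).val < x.val)
    (lab : L → Fin N → ℕ)
    (hcompat : ∀ K i x y, lab K x = lab K y → lab K (f i x) = lab K (f i y))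
    (r : Fin N → L)
    (hr : ∀ K w, lab K w = lab K ⟨0, hN⟩ ↔ r w ≤ K)
    (hsurj : ∀ K, ∃ w, r w = K)
    (hcl : ∀ θ : Setoid (Fin N), (∀ i x y, θ x y → θ (f i x) (f i y)) →
      ∀ w u, θ ⟨0, hN⟩ w → r u ≤ r w → θ ⟨0, hN⟩ u)
    (hjoin : ∀ θ : Setoid (Fin N), (∀ i x y, θ x y → θ (f i x) (f i y)) →
      ∀ K K', (∀ u, r u ≤ K → θ ⟨0, hN⟩ u) → (∀ u, r u ≤ K' → θ ⟨0, hN⟩ u) →
        ∀ u, r u ≤ K ⊔ K' → θ ⟨0, hN⟩ u) :
    Representable L := by
  classical
  haveI : Fintype L := Fintype.ofFinite L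
  let S : L → Setoid (Fin N) := fun K => Setoid.ker (lab K)
  have hSr : ∀ K x y, S K x y ↔ lab K x = lab K y := fun K x y => Iff.rfl
  have hSinv : ∀ K i x y, S K x y → S K (f i x) (f i y) := fun K i x y h => hcompat K i x y h
  have hle : ∀ K K', S K ≤ S K' ↔ K ≤ K' := by
    intro K K'
    constructor
    · intro h
      obtain ⟨w, hw⟩ := hsurj K
      have h1 : S K w ⟨0, hN⟩ := (hr K w).2 (le_of_eq hw)
      have h2 : S K' w ⟨0, hN⟩ := h h1
      have h3 := (hr K' w).1 h2
      rwa [hw] at h3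
    · intro h x y hxy
      refine agree hN f hinv hconn (S K) (S K') (hSinv K) (hSinv K') ?_ x y hxy
      intro y hy
      have h1 : lab K y = lab K ⟨0, hN⟩ := hy.symm
      have h2 := (hr K y).1 h1
      exact ((hr K' y).2 (h2.trans h)).symm
  let Φ : L → {θ : Setoid (Fin N) // IsCongruence (arU k) (opU f) θ} := fun K =>
    ⟨S K, (isCongruence_iff f (S K)).2 (hSinv K)⟩
  have hΦle : ∀ K K', Φ K ≤ Φ K' ↔ K ≤ K' := fun K K' => hle K K'
  have hsurjΦ : Function.Surjective Φ := by
    rintro ⟨θ, hθ⟩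
    have hθ' := (isCongruence_iff f θ).1 hθ
    let P : L → Prop := fun K => ∀ u, r u ≤ K → θ ⟨0, hN⟩ u
    have hP0 : P (r ⟨0, hN⟩) := fun u hu => hcl θ hθ' ⟨0, hN⟩ u (θ.refl' _) hu
    have hne : (Finset.univ.filter P).Nonempty := ⟨_, Finset.mem_filter.2 ⟨Finset.mem_univ _, hP0⟩⟩
    let m : L := (Finset.univ.filter P).sup' hne id
    have hPm : P m := by
      apply Finset.sup'_induction hne id (p := P)
      · intro a ha b hb
        exact hjoin θ hθ' a b ha hb
      · intro b hb
        exact (Finset.mem_filter.1 hb).2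
    have hlem : ∀ K, P K → K ≤ m := fun K hK =>
      Finset.le_sup' id (Finset.mem_filter.2 ⟨Finset.mem_univ _, hK⟩)
    refine ⟨m, Subtype.ext ?_⟩
    apply le_antisymm
    · intro x y hxy
      refine agree hN f hinv hconn (S m) θ (hSinv m) hθ' ?_ x y hxy
      intro y hy
      exact hPm y ((hr m y).1 hy.symm)
    · intro x y hxy
      refine agree hN f hinv hconn θ (S m) hθ' (hSinv m) ?_ x y hxy
      intro y hy
      have hPy : P (r y) := fun u hu => hcl θ hθ' y u hy hu
      exact ((hr m y).2 (hlem _ hPy)).symm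
  have hinj : Function.Injective Φ := by
    intro K K' h
    apply le_antisymm
    · exact (hΦle K K').1 (le_of_eq h)
    · exact (hΦle K' K).1 (le_of_eq h.symm)
  let e : L ≃ {θ : Setoid (Fin N) // IsCongruence (arU k) (opU f) θ} :=
    Equiv.ofBijective Φ ⟨hinj, hsurjΦ⟩
  refine ⟨Fin N, inferInstance, ⟨⟨0, hN⟩⟩, k, arU k, opU f, ⟨⟨e, ?_⟩⟩⟩
  intro K K'
  exact hΦle K K'

end Core

end Vale.Agent.P183L
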