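import Vale.Agent.P183.Defs

/-!
The seven element lattice `2 × 3` plus a common complement.
-/

namespace Vale.Agent.P183L

/-- The order of the seven element lattice: `0` is the bottom, `6` is the top, and
`1 < 4`, `2 < 4`, `1 < 5`, while `3` is a complement of `1, 2, 4, 5`. -/
def le7 (x y : Fin 7) : Prop :=
  x = 0 ∨ y = 6 ∨ x = y ∨ (x = 1 ∧ y = 4) ∨ (x = 2 ∧ y = 4) ∨ (x = 1 ∧ y = 5)

instance (x y : Fin 7) : Decidable (le7 x y) := by unfold le7; infer_instance

/-- The seven element lattice. -/
def L7 : Type := Fin 7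

def sup7 (x y : Fin 7) : Fin 7 :=
  if le7 x y then y else if le7 y x then x else if le7 x 4 ∧ le7 y 4 then 4 else 6

def inf7 (x y : Fin 7) : Fin 7 :=
  if le7 x y then x else if le7 y x then y else if le7 1 x ∧ le7 1 y then 1 else 0

theorem le7_refl : ∀ x : Fin 7, le7 x x := by decide
theorem le7_trans : ∀ x y z : Fin 7, le7 x y → le7 y z → le7 x z := by decide
theorem le7_antisymm : ∀ x y : Fin 7, le7 x y → le7 y x → x = y := by decide
theorem sup7_left : ∀ x y : Fin 7, le7 x (sup7 x y) := by decide
theorem sup7_right : ∀ x y : Fin 7, le7 y (sup7 x y) := by decide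
theorem sup7_le : ∀ x y z : Fin 7, le7 x z → le7 y z → le7 (sup7 x y) z := by decide
theorem inf7_left : ∀ x y : Fin 7, le7 (inf7 x y) x := by decide
theorem inf7_right : ∀ x y : Fin 7, le7 (inf7 x y) y := by decide
theorem le_inf7 : ∀ x y z : Fin 7, le7 x y → le7 x z → le7 x (inf7 y z) := by decide

instance : Lattice L7 where
  le := le7
  le_refl := le7_refl
  le_trans := le7_trans
  le_antisymm := le7_antisymm
  sup := sup7
  le_sup_left := sup7_left
  le_sup_right := sup7_right
  sup_le := sup7_le
  inf := inf7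
  inf_le_left := inf7_left
  inf_le_right := inf7_right
  le_inf := le_inf7

instance : Finite L7 := inferInstanceAs (Finite (Fin 7))

end Vale.Agent.P183L
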