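import Vale.Agent.P183L.Small

/-!
A checker for transitive permutation representations: only the class of the base point is examined.
-/

namespace Vale.Agent.P183L.Small

open Vale.Agent.P183

universe u

section Core3

variable {L : Type u} [Lattice L] [Finite L] {N k : ℕ} (hN : 0 < N) (f : Fin k → Fin N → Fin N)

theorem agree3 (hinv : ∀ i, ∃ j, ∀ x, f j (f i x) = x)
    (hconn : ∀ x : Fin N, x.val ≠ 0 → ∃ i, (f i x).val < x.val)
    (θ θ' : Setoid (Fin N))
    (hθ : ∀ i x y, θ x y → θ (f i x) (f i y))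
    (hθ' : ∀ i x y, θ' x y → θ' (f i x) (f i y))
    (hbase : ∀ y, θ ⟨0, hN⟩ y → θ' ⟨0, hN⟩ y) :
    ∀ x y, θ x y → θ' x y := by
  have key : ∀ n : ℕ, ∀ x : Fin N, x.val = n → ∀ y, θ x y → θ' x y := by
    intro n
    induction n using Nat.strong_induction_on with
    | _ n ih =>
      intro x hx y hxy
      by_cases h0 : x.val = 0
      · have : x = ⟨0, hN⟩ := Fin.ext h0
        subst this
        exact hbase y hxy
      · obtain ⟨i, hi⟩ := hconn x h0
        have h1 := ih (f i x).val (by omega) (f i x) rfl (f i y) (hθ i x y hxy)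
        obtain ⟨j, hj⟩ := hinv i
        have h2 := hθ' j _ _ h1
        rwa [hj, hj] at h2
  intro x y
  exact key x.val x rfl y

theorem representable_of_core3
    (hinv : ∀ i, ∃ j, ∀ x, f j (f i x) = x)
    (hconn : ∀ x : Fin N, x.val ≠ 0 → ∃ i, (f i x).val < x.val)
    (lab : L → Fin N → ℕ)
    (hcompat : ∀ K i x y, lab K x = lab K y → lab K (f i x) = lab K (f i y))
    (r : Fin N → L)
    (hr : ∀ K w, lab K w = lab K ⟨0, hN⟩ ↔ r w ≤ K)
    (hrefl : ∀ K K', (∀ w, r w ≤ K → r w ≤ K') → K ≤ K')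
    (hcl : ∀ θ : Setoid (Fin N), (∀ i x y, θ x y → θ (f i x) (f i y)) →
      ∀ w u, θ ⟨0, hN⟩ w → r u ≤ r w → θ ⟨0, hN⟩ u)
    (hjoin : ∀ θ : Setoid (Fin N), (∀ i x y, θ x y → θ (f i x) (f i y)) →
      ∀ K K', (∀ u, r u ≤ K → θ ⟨0, hN⟩ u) → (∀ u, r u ≤ K' → θ ⟨0, hN⟩ u) →
        ∀ u, r u ≤ K ⊔ K' → θ ⟨0, hN⟩ u) :
    Representable L := by
  classical
  have : Fintype L := Fintype.ofFinite L
  let S : L → Setoid (Fin N) := fun K => Setoid.ker (lab K)
  have hSinv : ∀ K i x y, S K x y → S K (f i x) (f i y) := fun K i x y h => hcompat K i x y h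
  have hle : ∀ K K', S K ≤ S K' ↔ K ≤ K' := by
    intro K K'
    constructor
    · intro h
      refine hrefl K K' fun w hw => ?_
      have h1 : S K w ⟨0, hN⟩ := (hr K w).2 hw
      have h2 : S K' w ⟨0, hN⟩ := h h1
      exact (hr K' w).1 h2
    · intro h x y hxy
      refine agree3 hN f hinv hconn (S K) (S K') (hSinv K) (hSinv K') ?_ x y hxy
      intro y hy
      have h1 : lab K y = lab K ⟨0, hN⟩ := hy.symm
      have h2 := (hr K y).1 h1
      exact ((hr K' y).2 (h2.trans h)).symm
  let Φ : L → {θ : Setoid (Fin N) // IsCongruence (arU k) (opU f) θ} := fun K =>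
    ⟨S K, (isCongruence_iff f (S K)).2 (hSinv K)⟩
  have hΦle : ∀ K K', Φ K ≤ Φ K' ↔ K ≤ K' := fun K K' => hle K K'
  have hsurjΦ : Function.Surjective Φ := by
    rintro ⟨θ, hθ⟩
    have hθ' := (isCongruence_iff f θ).1 hθ
    let P : L → Prop := fun K => ∀ u, r u ≤ K → θ ⟨0, hN⟩ u
    have hP0 : P (r ⟨0, hN⟩) := fun u hu => hcl θ hθ' ⟨0, hN⟩ u (θ.refl' _) hu
    have hne : (Finset.univ.filter P).Nonempty := ⟨_, Finset.mem_filter.2 ⟨Finset.mem_univ _, hP0⟩⟩
    let m : L := (Finset.univ.filter P).sup' hne id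
    have hPm : P m := by
      apply Finset.sup'_induction hne id (p := P)
      · intro a ha b hb
        exact hjoin θ hθ' a b ha hb
      · intro b hb
        exact (Finset.mem_filter.1 hb).2
    have hlem : ∀ K, P K → K ≤ m := fun K hK =>
      Finset.le_sup' id (Finset.mem_filter.2 ⟨Finset.mem_univ _, hK⟩)
    refine ⟨m, Subtype.ext ?_⟩
    apply le_antisymm
    · intro x y hxy
      refine agree3 hN f hinv hconn (S m) θ (hSinv m) hθ' ?_ x y hxy
      intro y hy
      exact hPm y ((hr m y).1 hy.symm)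
    · intro x y hxy
      refine agree3 hN f hinv hconn θ (S m) hθ' (hSinv m) ?_ x y hxy
      intro y hy
      have hPy : P (r y) := fun u hu => hcl θ hθ' y u hy hu
      exact ((hr m y).2 (hlem _ hPy)).symm
  have hinj : Function.Injective Φ := by
    intro K K' h
    apply le_antisymm
    · exact (hΦle K K').1 (le_of_eq h)
    · exact (hΦle K' K).1 (le_of_eq h.symm)
  let e : L ≃ {θ : Setoid (Fin N) // IsCongruence (arU k) (opU f) θ} :=
    Equiv.ofBijective Φ ⟨hinj, hsurjΦ⟩
  refine ⟨Fin N, inferInstance, ⟨⟨0, hN⟩⟩, k, arU k, opU f, ⟨⟨e, ?_⟩⟩⟩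
  intro K K'
  exact hΦle K K'

end Core3

/-- Values stay below `m`, each operation has an inverse in the list, the tree is connected. -/
noncomputable def permChk (m : ℕ) (ops : List (List ℕ)) (invI cc : ℕ → ℕ) : Bool :=
  and (ops.all (fun o => allB m (fun a => Nat.ble (Nat.add (gd o a) 1) m)))
    (and (allB ops.length (fun i => and (Nat.ble (Nat.add (invI i) 1) ops.length)
        (allB m (fun x => Nat.beq (gd (ops.getD (invI i) []) (gd (ops.getD i []) x)) x))))
      (allB m (fun x => cond (Nat.beq x 0) true (and (Nat.ble (Nat.add (cc x) 1) ops.length)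
        (Nat.ble (Nat.add (gd (ops.getD (cc x) []) x) 1) x)))))

/-- Labelling number `K` is compatible with the operations. -/
noncomputable def compat1 (m : ℕ) (ops labs : List (List ℕ)) (K : ℕ) : Bool :=
  ops.all (fun o => allB m (fun x =>
    Nat.beq (gd (lbl labs K) (gd o x)) (gd (lbl labs K) (gd o (gd (lbl labs K) x)))))

/-- Levels against labels. -/
noncomputable def rChkS (m : ℕ) (labs : List (List ℕ)) (n : ℕ) (t : ℕ → ℕ → Bool) (rL : List ℕ) : Bool :=
  and (allB m (fun x => and (Nat.ble (Nat.add (gd rL x) 1) n)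
      (allB n (fun K => eqB (Nat.beq (gd (lbl labs K) x) (gd (lbl labs K) 0)) (t (gd rL x) K)))))
    (allB n (fun a => allB n (fun b => or (t a b) (anyB m (fun w =>
      and (t (gd rL w) a) (not (t (gd rL w) b)))))))

/-- The point `u` is identified with the base point by the labels `F`, if it lies below `K`. -/
noncomputable def coversB (m : ℕ) (t : ℕ → ℕ → Bool) (rL : List ℕ) (K : ℕ) (F : List ℕ) : Bool :=
  allB m (fun u => cond (t (gd rL u) K) (Nat.beq (gd F u) (gd F 0)) true)

/-- The principal congruence of the pair `0`, `w`. -/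
noncomputable def pair1 (m : ℕ) (ops : List (List ℕ)) (t : ℕ → ℕ → Bool) (rL : List ℕ) (fuel w : ℕ) :
    Bool :=
  coversB m t rL (gd rL w) (cgRun ops fuel (List.range m) [(0, w)])

/-- The pairs below an element. -/
noncomputable def pairsB (m : ℕ) (t : ℕ → ℕ → Bool) (rL : List ℕ) (K : ℕ) : List (ℕ × ℕ) :=
  ((List.range m).filter (fun u => t (gd rL u) K)).map (fun u => (0, u))

/-- Joins. -/
noncomputable def join1 (m n : ℕ) (ops : List (List ℕ)) (t : ℕ → ℕ → Bool) (rL : List ℕ) (fuel a b c : ℕ) :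
    Bool :=
  or (not (isLubB t n a b c)) (or (Nat.beq c a) (or (Nat.beq c b)
    (coversB m t rL c (cgRun ops fuel (List.range m) (pairsB m t rL a ++ pairsB m t rL b)))))

section Main3

variable {L : Type u} [Lattice L] [Finite L] {n m : ℕ} {t : ℕ → ℕ → Bool}
  {ops labs : List (List ℕ)} {rL : List ℕ} {invI cc : ℕ → ℕ} {fuel : ℕ}

theorem representable_of_gset (hm : 0 < m) (e : L ≃ Fin n)
    (he : ∀ x y : L, x ≤ y ↔ t (e x) (e y) = true)
    (hperm : permChk m ops invI cc = true)
    (hcompat : allB n (compat1 m ops labs) = true)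
    (hrr : rChkS m labs n t rL = true)
    (hpair : allB m (pair1 m ops t rL fuel) = true)
    (hjoin : allB n (fun a => allB n (fun b => allB n (fun c => join1 m n ops t rL fuel a b c))) = true) :
    Representable L := by
  unfold permChk at hperm
  simp only [Bool.and_eq_true, List.all_eq_true] at hperm
  obtain ⟨hbd, hinv, hconn⟩ := hperm
  have bdo : ∀ o ∈ ops, ∀ a, a < m → gd o a < m := fun o ho a ha =>
    Nat.le_of_ble_eq_true (allB_spec (hbd o ho) a ha)
  have hget : ∀ (i : ℕ) (h : i < ops.length), ops.getD i [] = ops[i] := fun i h =>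
    List.getD_eq_getElem _ _ h
  unfold rChkS at hrr
  obtain ⟨hr1, hr2⟩ := Bool.and_eq_true_iff.1 hrr
  have rbd : ∀ x, x < m → gd rL x < n := fun x hx =>
    Nat.le_of_ble_eq_true (Bool.and_eq_true_iff.1 (allB_spec hr1 x hx)).1
  have rspec : ∀ x, x < m → ∀ K, K < n →
      (gd (lbl labs K) x = gd (lbl labs K) 0 ↔ t (gd rL x) K = true) := by
    intro x hx K hK
    have h2 := (Bool.and_eq_true_iff.1 (allB_spec hr1 x hx)).2
    have h3 := eqB_spec (allB_spec h2 K hK)
    rw [← h3]
    constructor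
    · intro h
      rw [h]
      exact Nat.beq_refl _
    · exact Nat.eq_of_beq_eq_true
  let lab : L → Fin m → ℕ := fun K x => gd (lbl labs (e K).val) x.val
  let r : Fin m → L := fun x => e.symm ⟨gd rL x.val, rbd x.val x.isLt⟩
  have hre : ∀ x : Fin m, (e (r x)).val = gd rL x.val := by
    intro x
    simp [r]
  have opv : ∀ (i : Fin ops.length) (x : Fin m), (opF hm ops i x).val = gd ops[i] x.val := by
    intro i x
    exact ofN_val hm (bdo _ (List.getElem_mem _) _ x.isLt)
  have rle : ∀ (u : Fin m) (K : L), r u ≤ K ↔ t (gd rL u.val) (e K).val = true := by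
    intro u K
    rw [he, hre]
  -- closure soundness
  have cov : ∀ (θ : Setoid (Fin m)), (∀ i x y, θ x y → θ (opF hm ops i x) (opF hm ops i y)) →
      ∀ (p : List (ℕ × ℕ)) (K : ℕ), (∀ q ∈ p, q.1 < m ∧ q.2 < m ∧ RelF hm θ q.1 q.2) →
        coversB m t rL K (cgRun ops fuel (List.range m) p) = true →
        ∀ u : Fin m, t (gd rL u.val) K = true → θ ⟨0, hm⟩ u := by
    intro θ hθ p K hp hc u hu
    have hR := invU_of (ops := ops) hm θ hθ
    have hG := goodL_run hR bdo fuel (List.range m) p (goodL_range hR) hp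
    have h1 := allB_spec hc u.val u.isLt
    rw [hu] at h1
    have h2 := Nat.eq_of_beq_eq_true h1
    have h3 := hG.2 u.val 0 u.isLt hm h2
    have h4 := hR.symm h3
    unfold RelF at h4
    have e0 : ofN hm 0 = ⟨0, hm⟩ := Fin.ext (ofN_val hm hm)
    rwa [ofN_fin, e0] at h4
  refine representable_of_core3 (k := ops.length) hm (opF hm ops) ?_ ?_ lab ?_ r ?_ ?_ ?_ ?_
  · -- inverses
    intro i
    have h1 := Bool.and_eq_true_iff.1 (allB_spec hinv i.val i.isLt)
    have hj : invI i.val < ops.length := Nat.le_of_ble_eq_true h1.1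
    refine ⟨⟨invI i.val, hj⟩, fun x => ?_⟩
    apply Fin.ext
    rw [opv, opv]
    have h2 := Nat.eq_of_beq_eq_true (allB_spec h1.2 x.val x.isLt)
    rw [hget _ hj, hget _ i.isLt] at h2
    exact h2
  · -- connected
    intro x hx
    have h1 := allB_spec hconn x.val x.isLt
    have hb : Nat.beq x.val 0 = false := by
      cases h' : Nat.beq x.val 0 with
      | false => rfl
      | true => exact absurd (Nat.eq_of_beq_eq_true h') hx
    rw [hb] at h1
    have h2 := Bool.and_eq_true_iff.1 h1
    have hc : cc x.val < ops.length := Nat.le_of_ble_eq_true h2.1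
    refine ⟨⟨cc x.val, hc⟩, ?_⟩
    rw [opv]
    have h3 : gd (ops.getD (cc x.val) []) x.val < x.val := Nat.le_of_ble_eq_true h2.2
    rw [hget _ hc] at h3
    exact h3
  · -- compatibility
    intro K i x y h
    have hc := allB_spec hcompat (e K).val (e K).isLt
    unfold compat1 at hc
    rw [List.all_eq_true] at hc
    have h1 := allB_spec (hc ops[i] (List.getElem_mem _))
    have h2 := Nat.eq_of_beq_eq_true (h1 x.val x.isLt)
    have h3 := Nat.eq_of_beq_eq_true (h1 y.val y.isLt)
    show gd (lbl labs (e K).val) (opF hm ops i x).val = gd (lbl labs (e K).val) (opF hm ops i y).val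
    rw [opv, opv, h2, h3]
    have h' : gd (lbl labs (e K).val) x.val = gd (lbl labs (e K).val) y.val := h
    rw [h']
  · -- levels
    intro K w
    rw [rle]
    exact rspec w.val w.isLt _ (e K).isLt
  · -- separation
    intro K K' h
    rw [he]
    have h1 := allB_spec (allB_spec hr2 (e K).val (e K).isLt) (e K').val (e K').isLt
    rcases Bool.or_eq_true_iff.1 h1 with h2 | h2
    · exact h2
    · exfalso
      obtain ⟨w, hw, h3⟩ := anyB_spec h2
      obtain ⟨h4, h5⟩ := Bool.and_eq_true_iff.1 h3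
      have h6 := h ⟨w, hw⟩ ((rle _ _).2 h4)
      have h7 := (rle _ _).1 h6
      rw [Bool.not_eq_true'] at h5
      exact absurd h7 (by rw [h5]; simp)
  · -- principal congruences
    intro θ hθ w u hw hu
    have h1 := allB_spec hpair w.val w.isLt
    have h2 := (rle u (r w)).1 hu
    rw [hre] at h2
    refine cov θ hθ [(0, w.val)] _ ?_ h1 u h2
    intro q hq
    rw [List.mem_singleton] at hq
    subst hq
    refine ⟨hm, w.isLt, ?_⟩
    unfold RelF
    have e0 : ofN hm 0 = ⟨0, hm⟩ := Fin.ext (ofN_val hm hm)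
    simp only [ofN_fin, e0]
    exact hw
  · -- joins
    intro θ hθ K K' hK hK' u hu
    have h1 := allB_spec (allB_spec (allB_spec hjoin (e K).val (e K).isLt) (e K').val (e K').isLt)
      (e (K ⊔ K')).val (e (K ⊔ K')).isLt
    unfold join1 at h1
    have hlub : isLubB t n (e K).val (e K').val (e (K ⊔ K')).val = true := by
      unfold isLubB allB
      rw [allR_iff]
      intro k hk
      have hk' : 0 + k < n := by omega
      have hd : ∀ z : L, t (e z).val (0 + k) = true ↔ z ≤ e.symm ⟨0 + k, hk'⟩ := by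
        intro z
        have := he z (e.symm ⟨0 + k, hk'⟩)
        simp only [Equiv.apply_symm_apply] at this
        exact this.symm
      apply eqB_of_iff
      rw [hd, hd, hd]
      exact sup_le_iff
    rw [hlub] at h1
    simp only [Bool.not_true, Bool.false_or, Bool.or_eq_true] at h1
    rcases h1 with h2 | h2 | h2
    · have h3 : K ⊔ K' = K := e.injective (Fin.ext (Nat.eq_of_beq_eq_true h2))
      rw [h3] at hu
      exact hK u hu
    · have h3 : K ⊔ K' = K' := e.injective (Fin.ext (Nat.eq_of_beq_eq_true h2))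
      rw [h3] at hu
      exact hK' u hu
    · have h3 : ∀ (K0 : L), (∀ u, r u ≤ K0 → θ ⟨0, hm⟩ u) →
          ∀ q ∈ pairsB m t rL (e K0).val, q.1 < m ∧ q.2 < m ∧ RelF hm θ q.1 q.2 := by
        intro K0 hK0 q hq
        unfold pairsB at hq
        obtain ⟨x, hx, rfl⟩ := List.mem_map.1 hq
        obtain ⟨hx1, hx2⟩ := List.mem_filter.1 hx
        have hxm : x < m := List.mem_range.1 hx1
        refine ⟨hm, hxm, ?_⟩
        have h4 : r ⟨x, hxm⟩ ≤ K0 := (rle _ _).2 hx2
        have h5 := hK0 _ h4
        unfold RelF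
        have e0 : ofN hm 0 = ⟨0, hm⟩ := Fin.ext (ofN_val hm hm)
        have e1 : ofN hm x = ⟨x, hxm⟩ := Fin.ext (ofN_val hm hxm)
        simp only [e0, e1]
        exact h5
      refine cov θ hθ (pairsB m t rL (e K).val ++ pairsB m t rL (e K').val) _ ?_ h2 u ((rle _ _).1 hu)
      intro q hq
      rcases List.mem_append.1 hq with h4 | h4
      · exact h3 K hK q h4
      · exact h3 K' hK' q h4

end Main3

end Vale.Agent.P183L.Small
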