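import Vale.Agent.P183L.GSet

/-!
A faster checker for transitive permutation representations, with the generators given by functions
and derivations from each point to a terminal point of its level.
-/

namespace Vale.Agent.P183L.Small

open Vale.Agent.P183

universe u

/-- The word attached to `y` by the tree `cc`, applied to `z`. -/
noncomputable def gA (tt : ℕ → ℕ → ℕ) (invI cc : ℕ → ℕ) (fuel : ℕ) : ℕ → ℕ → ℕ :=
  Nat.rec (fun _ z => z)
    (fun _ ih y z => cond (Nat.beq y 0) z (tt (invI (cc y)) (ih (tt (cc y) y) z))) fuel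

/-- The permutations, their inverses and the connecting tree. -/
noncomputable def perm2 (m k : ℕ) (tt : ℕ → ℕ → ℕ) (invI cc : ℕ → ℕ) : Bool :=
  and (allB k (fun i => and (Nat.ble (Nat.add (invI i) 1) k)
      (allB m (fun x => and (Nat.ble (Nat.add (tt i x) 1) m) (Nat.beq (tt (invI i) (tt i x)) x)))))
    (allB m (fun x => cond (Nat.beq x 0) true
      (and (Nat.ble (Nat.add (cc x) 1) k) (Nat.ble (Nat.add (tt (cc x) x) 1) x))))

/-- The labelling `l` is compatible with the permutation `i`. -/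
noncomputable def compat2 (m : ℕ) (tt : ℕ → ℕ → ℕ) (l : ℕ → ℕ) (i : ℕ) : Bool :=
  allB m (fun x => Nat.beq (l (tt i x)) (l (tt i (l x))))

/-- The levels against the labelling of the element `K`. -/
noncomputable def rr2 (m : ℕ) (t : ℕ → ℕ → Bool) (r : ℕ → ℕ) (l : ℕ → ℕ) (K : ℕ) : Bool :=
  allB m (fun x => eqB (Nat.beq (l x) (l 0)) (t (r x) K))

/-- One derivation step. -/
noncomputable def nxt2 (k m : ℕ) (tt : ℕ → ℕ → ℕ) (invI cc h1 h2 : ℕ → ℕ) (w : ℕ) : ℕ :=
  cond (Nat.ble k (h2 w)) (tt (h1 w) w) (gA tt invI cc m (tt (h1 w) w) (tt (h2 w) w))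

/-- The derivation from `w`. -/
noncomputable def step2 (k m : ℕ) (tt : ℕ → ℕ → ℕ) (invI cc h1 h2 r rk : ℕ → ℕ) (w : ℕ) : Bool :=
  and (Nat.ble (Nat.add (h1 w) 1) k) (and (Nat.beq (tt (h1 w) 0) 0)
    (and (or (Nat.ble k (h2 w)) (Nat.beq (tt (h2 w) 0) 0))
      (cond (Nat.beq (rk w) 0) true
        (and (Nat.beq (r (nxt2 k m tt invI cc h1 h2 w)) (r w))
          (Nat.ble (Nat.add (rk (nxt2 k m tt invI cc h1 h2 w)) 1) (rk w))))))

/-- A program: each step forms a new element of the class of the base point from two earlier ones. -/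
noncomputable def runZ (k m : ℕ) (tt : ℕ → ℕ → ℕ) (invI cc : ℕ → ℕ) :
    List (ℕ × ℕ × ℕ) → List ℕ → List ℕ
  | [], Z => Z
  | (a, b, h) :: p, Z =>
    runZ k m tt invI cc p
      (cond (and (Nat.ble (Nat.add h 1) k) (Nat.beq (tt h 0) 0))
        (gA tt invI cc m (gd Z a) (tt h (gd Z b))) 0 :: Z)

/-- The program from `w` reaches all points below the level of `w`. -/
noncomputable def cover3 (k m : ℕ) (tt : ℕ → ℕ → ℕ) (invI cc : ℕ → ℕ) (t : ℕ → ℕ → Bool) (r : ℕ → ℕ)
    (p : List (ℕ × ℕ × ℕ)) (w : ℕ) : Bool :=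
  (fun Z => allB m (fun u => cond (t (r u) (r w)) (memB Z u) true))
    (runZ k m tt invI cc p [w, 0])

/-- The program from `w` reaches the images of the base point. -/
noncomputable def coverT3 (k m : ℕ) (tt : ℕ → ℕ → ℕ) (invI cc : ℕ → ℕ)
    (p : List (ℕ × ℕ × ℕ)) (w : ℕ) : Bool :=
  (fun Z => allB k (fun i => memB Z (tt i 0))) (runZ k m tt invI cc p [w, 0])

/-- Joins. -/
noncomputable def join2 (m n : ℕ) (tt : ℕ → ℕ → ℕ) (invI cc : ℕ → ℕ) (t : ℕ → ℕ → Bool) (r : ℕ → ℕ)
    (jx jy : ℕ → ℕ → ℕ) (a b c : ℕ) : Bool :=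
  or (not (isLubB t n a b c)) (or (Nat.beq c a) (or (Nat.beq c b)
    (and (Nat.ble (Nat.add (jx a b) 1) m) (and (Nat.ble (Nat.add (jy a b) 1) m)
      (and (t (r (jx a b)) a) (and (t (r (jy a b)) b)
        (t c (r (gA tt invI cc m (jx a b) (jy a b))))))))))

section Rel

variable {m k : ℕ} {tt : ℕ → ℕ → ℕ} {invI cc : ℕ → ℕ} {R : ℕ → ℕ → Prop}

/-- Generators on the numbers below `m`. -/
structure Sys2 (m k : ℕ) (tt : ℕ → ℕ → ℕ) (invI cc : ℕ → ℕ) : Prop where
  bd : ∀ i x, i < k → x < m → tt i x < m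
  inv : ∀ i x, i < k → x < m → tt (invI i) (tt i x) = x
  invlt : ∀ i, i < k → invI i < k
  par : ∀ x, 0 < x → x < m → cc x < k ∧ tt (cc x) x < x

/-- An equivalence relation on numbers compatible with the generators. -/
structure InvT (m k : ℕ) (tt : ℕ → ℕ → ℕ) (R : ℕ → ℕ → Prop) : Prop where
  refl : ∀ x, R x x
  symm : ∀ {x y}, R x y → R y x
  trans : ∀ {x y z}, R x y → R y z → R x z
  comp : ∀ i x y, i < k → x < m → y < m → R x y → R (tt i x) (tt i y)

theorem gA_succ (n y z : ℕ) : gA tt invI cc (n + 1) y z =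
    cond (Nat.beq y 0) z (tt (invI (cc y)) (gA tt invI cc n (tt (cc y) y) z)) := rfl

theorem beq_ne {y : ℕ} (h0 : y ≠ 0) : Nat.beq y 0 = false := by
  cases h : Nat.beq y 0 with
  | false => rfl
  | true => exact absurd (Nat.eq_of_beq_eq_true h) h0

theorem gA_lt (s : Sys2 m k tt invI cc) (fuel y z : ℕ) (hy : y < m) (hz : z < m) :
    gA tt invI cc fuel y z < m := by
  induction fuel generalizing y with
  | zero => exact hz
  | succ n ih =>
    rw [gA_succ]
    by_cases h0 : y = 0
    · subst h0; exact hz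
    · rw [beq_ne h0]
      have hp := s.par y (Nat.pos_of_ne_zero h0) hy
      exact s.bd _ _ (s.invlt _ hp.1) (ih _ (lt_trans hp.2 hy))

theorem gA_base (s : Sys2 m k tt invI cc) (fuel y : ℕ) (hy : y < m) (hf : y < fuel) :
    gA tt invI cc fuel y 0 = y := by
  induction fuel generalizing y with
  | zero => omega
  | succ n ih =>
    rw [gA_succ]
    by_cases h0 : y = 0
    · subst h0; rfl
    · rw [beq_ne h0]
      have hp := s.par y (Nat.pos_of_ne_zero h0) hy
      have h1 := ih (tt (cc y) y) (lt_trans hp.2 hy) (by omega)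
      show tt (invI (cc y)) (gA tt invI cc n (tt (cc y) y) 0) = y
      rw [h1]
      exact s.inv _ _ hp.1 hy

theorem gA_comp (s : Sys2 m k tt invI cc) (hR : InvT m k tt R) (fuel y a b : ℕ) (hy : y < m)
    (ha : a < m) (hb : b < m) (hab : R a b) :
    R (gA tt invI cc fuel y a) (gA tt invI cc fuel y b) := by
  induction fuel generalizing y with
  | zero => exact hab
  | succ n ih =>
    rw [gA_succ, gA_succ]
    by_cases h0 : y = 0
    · subst h0; exact hab
    · rw [beq_ne h0]
      have hp := s.par y (Nat.pos_of_ne_zero h0) hy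
      have hy' := lt_trans hp.2 hy
      exact hR.comp _ _ _ (s.invlt _ hp.1) (gA_lt s _ _ _ hy' ha) (gA_lt s _ _ _ hy' hb) (ih _ hy')

theorem g_step2 (s : Sys2 m k tt invI cc) (hR : InvT m k tt R) {y z : ℕ} (hy : y < m) (hz : z < m)
    (h1 : R 0 y) (h2 : R 0 z) : R 0 (gA tt invI cc m y z) := by
  have hm : 0 < m := lt_of_le_of_lt (Nat.zero_le _) hy
  have h3 := gA_comp s hR m y 0 z hy hm hz h2
  rw [gA_base s m y hy hy] at h3
  exact hR.trans h1 h3

/-- Along derivations one reaches a terminal point of the level. -/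
theorem reach2 (s : Sys2 m k tt invI cc) (hR : InvT m k tt R) {h1 h2 r rk : ℕ → ℕ}
    (hchk : ∀ w, w < m → step2 k m tt invI cc h1 h2 r rk w = true) :
    ∀ w, w < m → R 0 w → ∃ w', w' < m ∧ rk w' = 0 ∧ r w' = r w ∧ R 0 w' := by
  have hm0 : ∀ w, w < m → 0 < m := fun w hw => lt_of_le_of_lt (Nat.zero_le _) hw
  have key : ∀ n w, rk w = n → w < m → R 0 w → ∃ w', w' < m ∧ rk w' = 0 ∧ r w' = r w ∧ R 0 w' := by
    intro n
    induction n using Nat.strong_induction_on with
    | _ n ih =>
      intro w hrk hw h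
      have hc := hchk w hw
      unfold step2 at hc
      simp only [Bool.and_eq_true] at hc
      obtain ⟨a1, a2, a3, a4⟩ := hc
      have a1' : h1 w < k := Nat.le_of_ble_eq_true a1
      have a2' : tt (h1 w) 0 = 0 := Nat.eq_of_beq_eq_true a2
      have e1 : R 0 (tt (h1 w) w) := by
        have := hR.comp _ _ _ a1' (hm0 w hw) hw h
        rwa [a2'] at this
      cases h0 : Nat.beq (rk w) 0 with
      | true => exact ⟨w, hw, Nat.eq_of_beq_eq_true h0, rfl, h⟩
      | false =>
        rw [h0] at a4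
        simp only [cond_false, Bool.and_eq_true] at a4
        have b1 : r (nxt2 k m tt invI cc h1 h2 w) = r w := Nat.eq_of_beq_eq_true a4.1
        have b2 : rk (nxt2 k m tt invI cc h1 h2 w) + 1 ≤ rk w := Nat.le_of_ble_eq_true a4.2
        have hn : nxt2 k m tt invI cc h1 h2 w < m ∧ R 0 (nxt2 k m tt invI cc h1 h2 w) := by
          unfold nxt2
          cases h3 : Nat.ble k (h2 w) with
          | true => exact ⟨s.bd _ _ a1' hw, e1⟩
          | false =>
            have a5 : h2 w < k := by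
              have : ¬ k ≤ h2 w := fun hh => by
                have := Nat.ble_eq_true_of_le hh
                rw [h3] at this
                exact absurd this (by simp)
              omega
            rw [h3] at a3
            have a6 : tt (h2 w) 0 = 0 := by
              have : Nat.beq (tt (h2 w) 0) 0 = true := by simpa using a3
              exact Nat.eq_of_beq_eq_true this
            have e2 : R 0 (tt (h2 w) w) := by
              have := hR.comp _ _ _ a5 (hm0 w hw) hw h
              rwa [a6] at this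
            exact ⟨gA_lt s _ _ _ (s.bd _ _ a1' hw) (s.bd _ _ a5 hw),
              g_step2 s hR (s.bd _ _ a1' hw) (s.bd _ _ a5 hw) e1 e2⟩
        obtain ⟨w', c1, c2, c3, c4⟩ := ih (rk (nxt2 k m tt invI cc h1 h2 w)) (by omega) _ rfl hn.1 hn.2
        exact ⟨w', c1, c2, c3.trans b1, c4⟩
  intro w
  exact key (rk w) w rfl

theorem gd_mem {Z : List ℕ} {P : ℕ → Prop} (h0 : P 0) (hZ : ∀ z ∈ Z, P z) (a : ℕ) : P (gd Z a) := by
  unfold gd
  rw [List.getD_eq_getElem?_getD]
  cases h : Z[a]? with
  | none => simpa using h0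
  | some v =>
    simp only [Option.getD_some]
    exact hZ v (List.mem_of_getElem? h)

theorem runZ_mem (s : Sys2 m k tt invI cc) (hR : InvT m k tt R) (hm : 0 < m)
    (p : List (ℕ × ℕ × ℕ)) (Z : List ℕ) (hZ : ∀ z ∈ Z, z < m ∧ R 0 z) :
    ∀ z ∈ runZ k m tt invI cc p Z, z < m ∧ R 0 z := by
  induction p generalizing Z with
  | nil => exact hZ
  | cons q p ih =>
    obtain ⟨a, b, h⟩ := q
    unfold runZ
    apply ih
    have ha := gd_mem (P := fun z => z < m ∧ R 0 z) ⟨hm, hR.refl 0⟩ hZ a
    have hb := gd_mem (P := fun z => z < m ∧ R 0 z) ⟨hm, hR.refl 0⟩ hZ b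
    intro z hz
    rcases List.mem_cons.1 hz with rfl | hz
    · cases h1 : and (Nat.ble (Nat.add h 1) k) (Nat.beq (tt h 0) 0) with
      | false => exact ⟨hm, hR.refl 0⟩
      | true =>
        obtain ⟨h2, h3⟩ := Bool.and_eq_true_iff.1 h1
        have h2' : h < k := Nat.le_of_ble_eq_true h2
        have h3' : tt h 0 = 0 := Nat.eq_of_beq_eq_true h3
        have h4 := hR.comp _ _ _ h2' hm hb.1 hb.2
        rw [h3'] at h4
        have hb' := s.bd _ _ h2' hb.1
        exact ⟨gA_lt s _ _ _ ha.1 hb', g_step2 s hR ha.1 hb' ha.2 h4⟩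
    · exact hZ z hz

theorem memB_mem2 {Z : List ℕ} {u : ℕ} (h2 : memB Z u = true) : u ∈ Z := by
  induction Z with
  | nil => simp [memB] at h2
  | cons a l ih =>
    unfold memB at h2
    cases hb : Nat.beq a u with
    | true => rw [Nat.eq_of_beq_eq_true hb]; exact List.mem_cons_self
    | false =>
      rw [hb] at h2
      exact List.mem_cons_of_mem _ (ih h2)

/-- If the images of the base point are related to it then all points are related to it. -/
theorem top2 (s : Sys2 m k tt invI cc) (hR : InvT m k tt R) (hm : 0 < m)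
    (h : ∀ i, i < k → R 0 (tt i 0)) : ∀ x, x < m → R 0 x := by
  intro x
  induction x using Nat.strong_induction_on with
  | _ x ih =>
    intro hx
    by_cases h0 : x = 0
    · subst h0
      exact hR.refl 0
    · have hp := s.par x (Nat.pos_of_ne_zero h0) hx
      have hp' := lt_trans hp.2 hx
      have h1 := ih _ hp.2 hp'
      have hi := s.invlt _ hp.1
      have h2 := hR.comp _ _ _ hi hm hp' h1
      rw [s.inv _ _ hp.1 hx] at h2
      exact hR.trans (h _ hi) h2

end Rel

section Main4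

variable {L : Type u} [Lattice L] [Finite L] {n m k : ℕ} {t : ℕ → ℕ → Bool} {tt : ℕ → ℕ → ℕ}
  {invI cc r term rk h1 h2 : ℕ → ℕ} {lab : ℕ → ℕ → ℕ} {jx jy : ℕ → ℕ → ℕ} {tp : ℕ}

theorem term_mem {m : ℕ} {rk : ℕ → ℕ} {Z : List ℕ}
    (h : allB m (fun w => or (not (Nat.beq (rk w) 0)) (memB Z w)) = true) (w : ℕ) (hw : w < m)
    (h0 : rk w = 0) : w ∈ Z := by
  have h1 := allB_spec h w hw
  rw [h0] at h1
  have h2 : memB Z w = true := by simpa using h1
  clear h1 h0 h
  induction Z with
  | nil => simp [memB] at h2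
  | cons a l ih =>
    unfold memB at h2
    cases hb : Nat.beq a w with
    | true => rw [Nat.eq_of_beq_eq_true hb]; exact List.mem_cons_self
    | false =>
      rw [hb] at h2
      exact List.mem_cons_of_mem _ (ih h2)

theorem sys2_of (hperm : perm2 m k tt invI cc = true) : Sys2 m k tt invI cc := by
  unfold perm2 at hperm
  obtain ⟨h1, h2⟩ := Bool.and_eq_true_iff.1 hperm
  refine ⟨?_, ?_, ?_, ?_⟩
  · intro i x hi hx
    have h3 := (Bool.and_eq_true_iff.1 (allB_spec h1 i hi)).2
    exact Nat.le_of_ble_eq_true (Bool.and_eq_true_iff.1 (allB_spec h3 x hx)).1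
  · intro i x hi hx
    have h3 := (Bool.and_eq_true_iff.1 (allB_spec h1 i hi)).2
    exact Nat.eq_of_beq_eq_true (Bool.and_eq_true_iff.1 (allB_spec h3 x hx)).2
  · intro i hi
    exact Nat.le_of_ble_eq_true (Bool.and_eq_true_iff.1 (allB_spec h1 i hi)).1
  · intro x h0 hx
    have h3 := allB_spec h2 x hx
    rw [beq_ne (by omega)] at h3
    obtain ⟨h4, h5⟩ := Bool.and_eq_true_iff.1 h3
    exact ⟨Nat.le_of_ble_eq_true h4, Nat.le_of_ble_eq_true h5⟩

theorem representable_of_gset2 (hm : 0 < m) (e : L ≃ Fin n)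
    (he : ∀ x y : L, x ≤ y ↔ t (e x) (e y) = true)
    (hperm : perm2 m k tt invI cc = true)
    (hcompat : ∀ K, K < n → ∀ i, i < k → compat2 m tt (lab K) i = true)
    (hrbd : ∀ x, x < m → r x < n)
    (hrr : ∀ K, K < n → rr2 m t r (lab K) K = true)
    (hterm : ∀ K, K < n → term K < m ∧ r (term K) = K)
    (hstep : ∀ w, w < m → step2 k m tt invI cc h1 h2 r rk w = true)
    (hcov : ∀ w, w < m → rk w = 0 → r w ≠ tp → ∃ p, cover3 k m tt invI cc t r p w = true)
    (htop : ∀ w, w < m → rk w = 0 → r w = tp → ∃ p, coverT3 k m tt invI cc p w = true)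
    (hjoin : ∀ a, a < n → ∀ b, b < n → ∀ c, c < n → join2 m n tt invI cc t r jx jy a b c = true) :
    Representable L := by
  have s := sys2_of hperm
  let F : Fin k → Fin m → Fin m := fun i x => ofN hm (tt i.val x.val)
  have Fv : ∀ (i : Fin k) (x : Fin m), (F i x).val = tt i.val x.val := fun i x =>
    ofN_val hm (s.bd _ _ i.isLt x.isLt)
  let labL : L → Fin m → ℕ := fun K x => lab (e K).val x.val
  let rr : Fin m → L := fun x => e.symm ⟨r x.val, hrbd x.val x.isLt⟩
  have hre : ∀ x : Fin m, (e (rr x)).val = r x.val := by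
    intro x
    simp [rr]
  have rle : ∀ (u : Fin m) (K : L), rr u ≤ K ↔ t (r u.val) (e K).val = true := by
    intro u K
    rw [he, hre]
  have e0 : ofN hm 0 = ⟨0, hm⟩ := Fin.ext (ofN_val hm hm)
  -- invariant relations
  have invT : ∀ θ : Setoid (Fin m), (∀ i x y, θ x y → θ (F i x) (F i y)) →
      InvT m k tt (RelF hm θ) := by
    intro θ hθ
    refine ⟨fun x => θ.refl' _, fun h => θ.symm' h, fun h1 h2 => θ.trans' h1 h2, ?_⟩
    intro i x y hi hx hy h
    have h1 := hθ ⟨i, hi⟩ (ofN hm x) (ofN hm y) h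
    simp only [F, ofN_val hm hx, ofN_val hm hy] at h1
    exact h1
  -- closure
  have hcl0 : ∀ θ : Setoid (Fin m), (∀ i x y, θ x y → θ (F i x) (F i y)) →
      ∀ w u : ℕ, w < m → u < m → RelF hm θ 0 w → t (r u) (r w) = true → RelF hm θ 0 u := by
    intro θ hθ w u hw hu h hl
    have hT := invT θ hθ
    obtain ⟨w', c1, c2, c3, c4⟩ := reach2 s hT hstep w hw h
    have hZ0 : ∀ z ∈ [w', 0], z < m ∧ RelF hm θ 0 z := by
      intro z hz
      simp only [List.mem_cons, List.not_mem_nil, or_false] at hz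
      rcases hz with rfl | rfl
      · exact ⟨c1, c4⟩
      · exact ⟨hm, hT.refl 0⟩
    by_cases htp : r w' = tp
    · obtain ⟨p, h3⟩ := htop w' c1 c2 htp
      unfold coverT3 at h3
      refine top2 s hT hm (fun i hi => ?_) u hu
      exact (runZ_mem s hT hm p _ hZ0 _ (memB_mem2 (allB_spec h3 i hi))).2
    obtain ⟨p, h2⟩ := hcov w' c1 c2 htp
    unfold cover3 at h2
    have h3 := allB_spec h2 u hu
    rw [c3, hl] at h3
    simp only [cond_true] at h3
    exact (runZ_mem s hT hm p _ hZ0 _ (memB_mem2 h3)).2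
  have Rel0 : ∀ (θ : Setoid (Fin m)) (w : Fin m), RelF hm θ 0 w.val ↔ θ ⟨0, hm⟩ w := by
    intro θ w
    unfold RelF
    rw [ofN_fin, e0]
  refine representable_of_core3 (k := k) hm F ?_ ?_ labL ?_ rr ?_ ?_ ?_ ?_
  · -- inverses
    intro i
    refine ⟨⟨invI i.val, s.invlt _ i.isLt⟩, fun x => Fin.ext ?_⟩
    rw [Fv, Fv]
    exact s.inv _ _ i.isLt x.isLt
  · -- connected
    intro x hx
    have hp := s.par x.val (Nat.pos_of_ne_zero hx) x.isLt
    refine ⟨⟨cc x.val, hp.1⟩, ?_⟩
    rw [Fv]
    exact hp.2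
  · -- compatibility
    intro K i x y h
    have hc := hcompat (e K).val (e K).isLt i.val i.isLt
    unfold compat2 at hc
    have h2 := Nat.eq_of_beq_eq_true (allB_spec hc x.val x.isLt)
    have h3 := Nat.eq_of_beq_eq_true (allB_spec hc y.val y.isLt)
    show lab (e K).val (F i x).val = lab (e K).val (F i y).val
    rw [Fv, Fv, h2, h3]
    have h' : lab (e K).val x.val = lab (e K).val y.val := h
    rw [h']
  · -- levels
    intro K w
    rw [rle]
    have h1 := allB_spec (hrr (e K).val (e K).isLt) w.val w.isLt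
    have h3 := eqB_spec h1
    rw [← h3]
    constructor
    · intro h
      have h' : lab (e K).val w.val = lab (e K).val 0 := h
      rw [h']
      exact Nat.beq_refl _
    · exact Nat.eq_of_beq_eq_true
  · -- separation
    intro K K' h
    have h1 := hterm (e K).val (e K).isLt
    have h2 : rr ⟨term (e K).val, h1.1⟩ = K := by
      apply e.injective
      apply Fin.ext
      rw [hre]
      exact h1.2
    have h3 := h ⟨term (e K).val, h1.1⟩ (le_of_eq h2)
    rwa [h2] at h3
  · -- principal congruences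
    intro θ hθ w u hw hu
    have h2 := (rle u (rr w)).1 hu
    rw [hre] at h2
    exact (Rel0 θ u).1 (hcl0 θ hθ w.val u.val w.isLt u.isLt ((Rel0 θ w).2 hw) h2)
  · -- joins
    intro θ hθ K K' hK hK' u hu
    have h1 := hjoin _ (e K).isLt _ (e K').isLt _ (e (K ⊔ K')).isLt
    unfold join2 at h1
    have hlub : isLubB t n (e K).val (e K').val (e (K ⊔ K')).val = true := by
      unfold isLubB allB
      rw [allR_iff]
      intro k hk
      have hk' : 0 + k < n := by omega
      have hd : ∀ z : L, t (e z).val (0 + k) = true ↔ z ≤ e.symm ⟨0 + k, hk'⟩ := by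
        intro z
        have := he z (e.symm ⟨0 + k, hk'⟩)
        simp only [Equiv.apply_symm_apply] at this
        exact this.symm
      apply eqB_of_iff
      rw [hd, hd, hd]
      exact sup_le_iff
    rw [hlub] at h1
    simp only [Bool.not_true, Bool.false_or, Bool.or_eq_true, Bool.and_eq_true] at h1
    rcases h1 with h2 | h2 | h2
    · have h3 : K ⊔ K' = K := e.injective (Fin.ext (Nat.eq_of_beq_eq_true h2))
      rw [h3] at hu
      exact hK u hu
    · have h3 : K ⊔ K' = K' := e.injective (Fin.ext (Nat.eq_of_beq_eq_true h2))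
      rw [h3] at hu
      exact hK' u hu
    · obtain ⟨a1, a2, a3, a4, a5⟩ := h2
      have a1' : jx (e K).val (e K').val < m := Nat.le_of_ble_eq_true a1
      have a2' : jy (e K).val (e K').val < m := Nat.le_of_ble_eq_true a2
      have hT := invT θ hθ
      have b1 : RelF hm θ 0 (jx (e K).val (e K').val) := by
        have h4 : rr ⟨_, a1'⟩ ≤ K := (rle _ _).2 a3
        exact (Rel0 θ ⟨_, a1'⟩).2 (hK _ h4)
      have b2 : RelF hm θ 0 (jy (e K).val (e K').val) := by
        have h4 : rr ⟨_, a2'⟩ ≤ K' := (rle _ _).2 a4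
        exact (Rel0 θ ⟨_, a2'⟩).2 (hK' _ h4)
      have b3 := g_step2 s hT a1' a2' b1 b2
      have b4 := gA_lt s m _ _ a1' a2'
      have b5 : t (r u.val) (r (gA tt invI cc m (jx (e K).val (e K').val) (jy (e K).val (e K').val)))
          = true := by
        have c1 : rr u ≤ K ⊔ K' := hu
        have c2 : K ⊔ K' ≤ rr ⟨_, b4⟩ := by
          rw [he, hre]
          exact a5
        have c3 := (rle u _).1 (c1.trans c2)
        rwa [hre] at c3
      exact (Rel0 θ u).1 (hcl0 θ hθ _ u.val b4 u.isLt b3 b5)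

end Main4

end Vale.Agent.P183L.Small
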