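/-!
Primitive functions on natural numbers evaluated by the kernel: table lookup, range checks, words.
-/

namespace Vale.Agent.P183L

/-- Entry `x` of a table of 16 bit entries. -/
def lk16 (T x : Nat) : Nat := Nat.land (Nat.shiftRight T (Nat.mul x 16)) 65535

/-- Entry `x` of a table of 8 bit entries. -/
def lk8 (T x : Nat) : Nat := Nat.land (Nat.shiftRight T (Nat.mul x 8)) 255

/-- `f` holds at `a, a+1, ..., a+n-1`. -/
noncomputable def allR (f : Nat → Bool) (a n : Nat) : Bool :=
  Nat.rec true (fun k ih => and (f (Nat.add a k)) ih) n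

/-- The word attached to `y` by the tree `cc`, applied to `z`. -/
noncomputable def gAux (tt : Nat → Nat → Nat) (cc : Nat → Nat) (fuel : Nat) : Nat → Nat → Nat :=
  Nat.rec (fun _ z => z)
    (fun _ ih y z => cond (Nat.beq y 0) z (tt (cc y) (ih (tt (cc y) y) z))) fuel

/-- Apply generator `c` if `b` is not zero. -/
def app (tt : Nat → Nat → Nat) (b c z : Nat) : Nat := cond (Nat.beq b 0) z (tt c z)

/-- A word in the two generators `0`, `1` fixing the base point; its code is `h`. -/
def hw (tt : Nat → Nat → Nat) (h z : Nat) : Nat :=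
  app tt (Nat.land (Nat.shiftRight h 2) 1) 0
    (app tt (Nat.land (Nat.shiftRight h 1) 1) 1 (app tt (Nat.land h 1) 0 z))

/-- One derivation step from `w`, with its code given by `hi`. -/
noncomputable def nxt (tt : Nat → Nat → Nat) (cc hi : Nat → Nat) (N w : Nat) : Nat :=
  cond (Nat.beq (Nat.land (Nat.shiftRight (hi w) 6) 1) 0)
    (hw tt (Nat.land (hi w) 7) w)
    (gAux tt cc N (hw tt (Nat.land (hi w) 7) w) (hw tt (Nat.land (Nat.shiftRight (hi w) 3) 7) w))

/-- The rank decreases along derivation steps, unless a terminal element has been reached. -/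
noncomputable def stepChk (tt : Nat → Nat → Nat) (cc hi : Nat → Nat) (N : Nat)
    (rk rT term : Nat → Nat) (w : Nat) : Bool :=
  cond (Nat.beq (rT w) 0) true
    (cond (Nat.beq (rk w) 0) (Nat.beq w (term (rT w)))
      (and (Nat.beq (rT (nxt tt cc hi N w)) (rT w))
        (Nat.ble (Nat.add (rk (nxt tt cc hi N w)) 1) (rk w))))

/-- A program: each step forms a new element from two earlier ones. -/
noncomputable def runP (tt : Nat → Nat → Nat) (cc : Nat → Nat) (N : Nat) :
    List (Nat × Nat × Nat) → List Nat → List Nat
  | [], Z => Z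
  | (a, b, h) :: p, Z =>
    runP tt cc N p (gAux tt cc N (Z.getD a 0) (hw tt h (Z.getD b 0)) :: Z)

/-- Membership in a list of numbers. -/
def memB : List Nat → Nat → Bool
  | [], _ => false
  | a :: l, x => cond (Nat.beq a x) true (memB l x)

/-- Boolean equality. -/
def eqB (a b : Bool) : Bool := cond a b (cond b false true)

/-- Generator `ti` is an involution preserving the range below `N`. -/
def genChk (ti : Nat → Nat) (N x : Nat) : Bool :=
  and (Nat.ble (Nat.add (ti x) 1) N) (Nat.beq (ti (ti x)) x)

/-- Every nonzero point has a neighbour with a smaller number. -/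
def parChk (tt : Nat → Nat → Nat) (cc : Nat → Nat) (k x : Nat) : Bool :=
  cond (Nat.beq x 0) true
    (and (Nat.ble (Nat.add (cc x) 1) k) (Nat.ble (Nat.add (tt (cc x) x) 1) x))

/-- The labelling `l` is compatible with the generator `ti`. -/
def compatChk (ti l : Nat → Nat) (x : Nat) : Bool :=
  Nat.beq (l (ti x)) (l (ti (l x)))

/-- The class of the base point for the labelling `l` is described by `rT` and the order `leB`. -/
def rChk (l : Nat → Nat) (leK : Nat → Bool) (x : Nat) : Bool :=
  eqB (Nat.beq (l x) (l 0)) (leK x)

/-- Every element below the element of index `K` lies in the list `Z`. -/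
def blockChk (leK : Nat → Bool) (Z : List Nat) (u : Nat) : Bool :=
  cond (leK u) (memB Z u) true

theorem allR_iff (f : Nat → Bool) (a n : Nat) :
    allR f a n = true ↔ ∀ k, k < n → f (a + k) = true := by
  induction n with
  | zero => exact ⟨fun _ k hk => absurd hk (Nat.not_lt_zero k), fun _ => rfl⟩
  | succ n ih =>
    have h : allR f a (n + 1) = and (f (a + n)) (allR f a n) := rfl
    rw [h, Bool.and_eq_true, ih]
    constructor
    · intro h0 k hk
      have h1 := h0.1
      have h2 := h0.2
      by_cases h3 : k = n
      · rw [h3]; exact h1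
      · exact h2 k (by omega)
    · intro h1
      exact ⟨h1 n (Nat.lt_succ_self n), fun k hk => h1 k (Nat.lt_succ_of_lt hk)⟩

/-- Glue two adjacent ranges. -/
theorem allR_step {f : Nat → Bool} {a n : Nat} (h1 : allR f 0 a = true) (h2 : allR f a n = true) :
    allR f 0 (a + n) = true := by
  rw [allR_iff] at h1 h2 ⊢
  intro k hk
  by_cases h : k < a
  · exact h1 k h
  · have := h2 (k - a) (by omega)
    have e : a + (k - a) = 0 + k := by omega
    rwa [e] at this

/-- Glue two adjacent ranges. -/
theorem allR_glue {f : Nat → Bool} {a n b m : Nat} (h1 : allR f a n = true) (h2 : allR f b m = true)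
    (hb : b = a + n) : allR f a (n + m) = true := by
  rw [allR_iff] at h1 h2 ⊢
  intro k hk
  by_cases h : k < n
  · exact h1 k h
  · have := h2 (k - n) (by omega)
    rw [hb] at this
    have e : a + n + (k - n) = a + k := by omega
    rwa [e] at this

theorem of_chain {f : Nat → Bool} {m n : Nat} (h : allR f 0 m = true) (hm : m = n) :
    ∀ x, x < n → f x = true := by
  intro x hx
  have := (allR_iff f 0 m).1 h x (by omega)
  simpa using this

end Vale.Agent.P183L
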