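import Vale.Agent.P183L.Core
import Vale.Agent.P183L.Prim

/-!
Soundness of the kernel checks of `Prim`.
-/

namespace Vale.Agent.P183L

open Vale.Agent.P183

section Sys

variable {N k : ℕ} {tt : ℕ → ℕ → ℕ} {cc : ℕ → ℕ}

/-- The generators are involutions of the range below `N` with a connecting tree. -/
structure Sys (N k : ℕ) (tt : ℕ → ℕ → ℕ) (cc : ℕ → ℕ) : Prop where
  bd : ∀ i x, i < k → x < N → tt i x < N
  inv : ∀ i x, i < k → x < N → tt i (tt i x) = x
  par : ∀ x, 0 < x → x < N → cc x < k ∧ tt (cc x) x < x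

/-- An invariant equivalence relation. -/
structure InvRel (N k : ℕ) (tt : ℕ → ℕ → ℕ) (R : ℕ → ℕ → Prop) : Prop where
  refl : ∀ x, R x x
  symm : ∀ {x y}, R x y → R y x
  trans : ∀ {x y z}, R x y → R y z → R x z
  comp : ∀ i x y, i < k → x < N → y < N → R x y → R (tt i x) (tt i y)

variable {R : ℕ → ℕ → Prop}

theorem gAux_zero (y z : ℕ) : gAux tt cc 0 y z = z := rfl

theorem gAux_succ (n y z : ℕ) : gAux tt cc (n + 1) y z =
    cond (Nat.beq y 0) z (tt (cc y) (gAux tt cc n (tt (cc y) y) z)) := rfl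

theorem gAux_lt (s : Sys N k tt cc) (fuel y z : ℕ) (hy : y < N) (hz : z < N) :
    gAux tt cc fuel y z < N := by
  induction fuel generalizing y with
  | zero => exact hz
  | succ n ih =>
    rw [gAux_succ]
    by_cases h0 : y = 0
    · subst h0; exact hz
    · have hb : Nat.beq y 0 = false := by
        cases h : Nat.beq y 0 with
        | false => rfl
        | true => exact absurd (Nat.eq_of_beq_eq_true h) h0
      rw [hb]
      have hp := s.par y (Nat.pos_of_ne_zero h0) hy
      exact s.bd _ _ hp.1 (ih _ (lt_trans hp.2 hy))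

theorem gAux_base (s : Sys N k tt cc) (fuel y : ℕ) (hy : y < N) (hf : y < fuel) :
    gAux tt cc fuel y 0 = y := by
  induction fuel generalizing y with
  | zero => omega
  | succ n ih =>
    rw [gAux_succ]
    by_cases h0 : y = 0
    · subst h0; rfl
    · have hb : Nat.beq y 0 = false := by
        cases h : Nat.beq y 0 with
        | false => rfl
        | true => exact absurd (Nat.eq_of_beq_eq_true h) h0
      rw [hb]
      have hp := s.par y (Nat.pos_of_ne_zero h0) hy
      have h1 := ih (tt (cc y) y) (lt_trans hp.2 hy) (by omega)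
      show tt (cc y) (gAux tt cc n (tt (cc y) y) 0) = y
      rw [h1]
      exact s.inv _ _ hp.1 hy

theorem gAux_comp (s : Sys N k tt cc) (hR : InvRel N k tt R) (fuel y a b : ℕ) (hy : y < N)
    (ha : a < N) (hb : b < N) (hab : R a b) :
    R (gAux tt cc fuel y a) (gAux tt cc fuel y b) := by
  induction fuel generalizing y with
  | zero => exact hab
  | succ n ih =>
    rw [gAux_succ, gAux_succ]
    by_cases h0 : y = 0
    · subst h0; exact hab
    · have hb' : Nat.beq y 0 = false := by
        cases h : Nat.beq y 0 with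
        | false => rfl
        | true => exact absurd (Nat.eq_of_beq_eq_true h) h0
      rw [hb']
      have hp := s.par y (Nat.pos_of_ne_zero h0) hy
      have hy' := lt_trans hp.2 hy
      exact hR.comp _ _ _ hp.1 (gAux_lt s _ _ _ hy' ha) (gAux_lt s _ _ _ hy' hb) (ih _ hy')

/-- The class of the base point is closed under the words attached to its elements. -/
theorem g_step (s : Sys N k tt cc) (hR : InvRel N k tt R) {y z : ℕ} (hy : y < N) (hz : z < N)
    (h1 : R 0 y) (h2 : R 0 z) : R 0 (gAux tt cc N y z) := by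
  have hN : 0 < N := lt_of_le_of_lt (Nat.zero_le _) hy
  have h3 := gAux_comp s hR N y 0 z hy hN hz h2
  rw [gAux_base s N y hy hy] at h3
  exact hR.trans h1 h3

theorem app_mem (s : Sys N k tt cc) (hR : InvRel N k tt R) (hk : 2 ≤ k)
    (hfix0 : tt 0 0 = 0) (hfix1 : tt 1 0 = 0) {b c z : ℕ} (hc : c = 0 ∨ c = 1) (hz : z < N)
    (h : R 0 z) : app tt b c z < N ∧ R 0 (app tt b c z) := by
  have hN : 0 < N := lt_of_le_of_lt (Nat.zero_le _) hz
  unfold app
  cases hb : Nat.beq b 0 with
  | true => exact ⟨hz, h⟩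
  | false =>
    have hck : c < k := by omega
    refine ⟨s.bd _ _ hck hz, ?_⟩
    have h1 := hR.comp c 0 z hck hN hz h
    have h2 : tt c 0 = 0 := by
      rcases hc with hc | hc <;> subst hc <;> assumption
    rwa [h2] at h1

theorem hw_mem (s : Sys N k tt cc) (hR : InvRel N k tt R) (hk : 2 ≤ k)
    (hfix0 : tt 0 0 = 0) (hfix1 : tt 1 0 = 0) (h : ℕ) {z : ℕ} (hz : z < N) (hh : R 0 z) :
    hw tt h z < N ∧ R 0 (hw tt h z) := by
  unfold hw
  have a1 := app_mem (b := Nat.land h 1) (c := 0) s hR hk hfix0 hfix1 (Or.inl rfl) hz hh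
  have a2 := app_mem (b := Nat.land (Nat.shiftRight h 1) 1) (c := 1) s hR hk hfix0 hfix1
    (Or.inr rfl) a1.1 a1.2
  exact app_mem (b := Nat.land (Nat.shiftRight h 2) 1) (c := 0) s hR hk hfix0 hfix1
    (Or.inl rfl) a2.1 a2.2

theorem g_step_lt (s : Sys N k tt cc) {y z : ℕ} (hy : y < N) (hz : z < N) :
    gAux tt cc N y z < N := gAux_lt s _ _ _ hy hz

theorem nxt_mem (s : Sys N k tt cc) (hR : InvRel N k tt R) (hk : 2 ≤ k)
    (hfix0 : tt 0 0 = 0) (hfix1 : tt 1 0 = 0) (hi : ℕ → ℕ) {w : ℕ} (hw' : w < N) (h : R 0 w) :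
    nxt tt cc hi N w < N ∧ R 0 (nxt tt cc hi N w) := by
  unfold nxt
  have a1 := hw_mem s hR hk hfix0 hfix1 (Nat.land (hi w) 7) hw' h
  cases Nat.beq (Nat.land (Nat.shiftRight (hi w) 6) 1) 0 with
  | true => exact a1
  | false =>
    have a2 := hw_mem s hR hk hfix0 hfix1 (Nat.land (Nat.shiftRight (hi w) 3) 7) hw' h
    exact ⟨g_step_lt s a1.1 a2.1, g_step s hR a1.1 a2.1 a1.2 a2.2⟩

/-- Rank induction: from any element of the class of the base point one reaches the terminal
element of its level. -/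
theorem reach_term (s : Sys N k tt cc) (hR : InvRel N k tt R) (hk : 2 ≤ k)
    (hfix0 : tt 0 0 = 0) (hfix1 : tt 1 0 = 0) (hi rk rT term : ℕ → ℕ)
    (hchk : ∀ w, w < N → stepChk tt cc hi N rk rT term w = true) :
    ∀ w, w < N → R 0 w → rT w ≠ 0 → R 0 (term (rT w)) := by
  have key : ∀ n w, rk w = n → w < N → R 0 w → rT w ≠ 0 → R 0 (term (rT w)) := by
    intro n
    induction n using Nat.strong_induction_on with
    | _ n ih =>
      intro w hrk hw' h hr
      have hc := hchk w hw'
      unfold stepChk at hc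
      have hb : Nat.beq (rT w) 0 = false := by
        cases h' : Nat.beq (rT w) 0 with
        | false => rfl
        | true => exact absurd (Nat.eq_of_beq_eq_true h') hr
      rw [hb] at hc
      simp only [cond_false] at hc
      cases h0 : Nat.beq (rk w) 0 with
      | true =>
        rw [h0] at hc
        simp only [cond_true] at hc
        have : w = term (rT w) := Nat.eq_of_beq_eq_true hc
        rw [← this]
        exact h
      | false =>
        rw [h0] at hc
        simp only [cond_false] at hc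
        have hc' := Bool.and_eq_true_iff.1 hc
        have e1 : rT (nxt tt cc hi N w) = rT w := Nat.eq_of_beq_eq_true hc'.1
        have e2 : rk (nxt tt cc hi N w) + 1 ≤ rk w := Nat.le_of_ble_eq_true hc'.2
        have m := nxt_mem s hR hk hfix0 hfix1 hi hw' h
        have := ih (rk (nxt tt cc hi N w)) (by omega) (nxt tt cc hi N w) rfl m.1 m.2 (by rwa [e1])
        rwa [e1] at this
  intro w
  exact key (rk w) w rfl

theorem getD_mem {Z : List ℕ} {P : ℕ → Prop} (h0 : P 0) (hZ : ∀ z ∈ Z, P z) (a : ℕ) :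
    P (Z.getD a 0) := by
  rw [List.getD_eq_getElem?_getD]
  cases h : Z[a]? with
  | none => simpa using h0
  | some v =>
    simp only [Option.getD_some]
    exact hZ v (List.mem_of_getElem? h)

theorem run_mem (s : Sys N k tt cc) (hR : InvRel N k tt R) (hk : 2 ≤ k) (hN : 0 < N)
    (hfix0 : tt 0 0 = 0) (hfix1 : tt 1 0 = 0) (p : List (ℕ × ℕ × ℕ)) (Z : List ℕ)
    (hZ : ∀ z ∈ Z, z < N ∧ R 0 z) : ∀ z ∈ runP tt cc N p Z, z < N ∧ R 0 z := by
  induction p generalizing Z with
  | nil => exact hZ
  | cons q p ih =>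
    obtain ⟨a, b, h⟩ := q
    have e : runP tt cc N ((a, b, h) :: p) Z =
        runP tt cc N p (gAux tt cc N (Z.getD a 0) (hw tt h (Z.getD b 0)) :: Z) := rfl
    rw [e]
    apply ih
    have ha := getD_mem (P := fun z => z < N ∧ R 0 z) ⟨hN, hR.refl 0⟩ hZ a
    have hb := getD_mem (P := fun z => z < N ∧ R 0 z) ⟨hN, hR.refl 0⟩ hZ b
    have hb' := hw_mem s hR hk hfix0 hfix1 h hb.1 hb.2
    intro z hz
    rcases List.mem_cons.1 hz with rfl | hz
    · exact ⟨g_step_lt s ha.1 hb'.1, g_step s hR ha.1 hb'.1 ha.2 hb'.2⟩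
    · exact hZ z hz

theorem memB_mem {Z : List ℕ} {u : ℕ} (h : memB Z u = true) : u ∈ Z := by
  induction Z with
  | nil => simp [memB] at h
  | cons a l ih =>
    unfold memB at h
    cases hb : Nat.beq a u with
    | true => rw [Nat.eq_of_beq_eq_true hb]; exact List.mem_cons_self
    | false =>
      rw [hb] at h
      exact List.mem_cons_of_mem _ (ih h)

/-- Block check: all elements below a level lie in a list obtained by a program. -/
theorem block_mem (s : Sys N k tt cc) (hR : InvRel N k tt R) (hk : 2 ≤ k) (hN : 0 < N)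
    (hfix0 : tt 0 0 = 0) (hfix1 : tt 1 0 = 0) (p : List (ℕ × ℕ × ℕ)) (t0 : ℕ) (ht0 : t0 < N)
    (Z : List ℕ) (hZ : runP tt cc N p [t0, 0] = Z) (leK : ℕ → Bool)
    (hb : ∀ u, u < N → blockChk leK Z u = true) (ht : R 0 t0) :
    ∀ u, u < N → leK u = true → R 0 u := by
  intro u hu hl
  have h1 := hb u hu
  unfold blockChk at h1
  rw [hl] at h1
  have h2 := memB_mem (by simpa using h1)
  rw [← hZ] at h2
  refine (run_mem s hR hk hN hfix0 hfix1 p [t0, 0] ?_ u h2).2
  intro z hz
  simp only [List.mem_cons, List.not_mem_nil, or_false] at hz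
  rcases hz with rfl | rfl
  · exact ⟨ht0, ht⟩
  · exact ⟨hN, hR.refl 0⟩

/-- If all generators move the base point within its class, the class is everything. -/
theorem top_mem (s : Sys N k tt cc) (hR : InvRel N k tt R) (hN : 0 < N)
    (ht : ∀ i, i < k → R 0 (tt i 0)) : ∀ u, u < N → R 0 u := by
  intro u
  induction u using Nat.strong_induction_on with
  | _ u ih =>
    intro hu
    by_cases h0 : u = 0
    · subst h0; exact hR.refl 0
    · have hp := s.par u (Nat.pos_of_ne_zero h0) hu
      have h1 := ih _ hp.2 (lt_trans hp.2 hu)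
      have h2 := hR.comp (cc u) 0 _ hp.1 hN (lt_trans hp.2 hu) h1
      rw [s.inv _ _ hp.1 hu] at h2
      exact hR.trans (ht _ hp.1) h2

end Sys

end Vale.Agent.P183L
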