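import Vale.Agent.P183L.Def7
import Vale.Agent.P183L.Theory
import Vale.Agent.P183L.ChkAll

/-!
The seven element lattice `2 × 3` plus a common complement is representable: it is the lattice of
block systems of the group `PSL(2,64)` acting on the `43680` cosets of `S₃ = PSL(2,2)`, equivalently
on the three element subsets of the projective line over the field with `64` elements.
-/

namespace Vale.Agent.P183L

open Vale.Agent.P183

namespace Cert

open Tab

theorem hN : 0 < N := by decide

/-- Reduction modulo `N`. -/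
def ofN (x : ℕ) : Fin N := ⟨x % N, Nat.mod_lt _ hN⟩

theorem ofN_val {x : ℕ} (h : x < N) : (ofN x).val = x := Nat.mod_eq_of_lt h

theorem ofN_fin (x : Fin N) : ofN x.val = x := Fin.ext (ofN_val x.isLt)

theorem genChk_spec {ti : ℕ → ℕ} {n x : ℕ} (h : genChk ti n x = true) :
    ti x < n ∧ ti (ti x) = x := by
  unfold genChk at h
  have h' := Bool.and_eq_true_iff.1 h
  exact ⟨Nat.le_of_ble_eq_true h'.1, Nat.eq_of_beq_eq_true h'.2⟩

theorem parChk_spec {x : ℕ} (h0 : 0 < x) (h : parChk tt cc 3 x = true) :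
    cc x < 3 ∧ tt (cc x) x < x := by
  unfold parChk at h
  have hb : Nat.beq x 0 = false := by
    cases h' : Nat.beq x 0 with
    | false => rfl
    | true =>
      have := Nat.eq_of_beq_eq_true h'
      omega
  rw [hb] at h
  have h' := Bool.and_eq_true_iff.1 h
  exact ⟨Nat.le_of_ble_eq_true h'.1, Nat.le_of_ble_eq_true h'.2⟩

theorem sys : Sys N 3 tt cc where
  bd := by
    intro i x hi hx
    interval_cases i
    · exact (genChk_spec (all_gen0 x hx)).1
    · exact (genChk_spec (all_gen1 x hx)).1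
    · exact (genChk_spec (all_gen2 x hx)).1
  inv := by
    intro i x hi hx
    interval_cases i
    · exact (genChk_spec (all_gen0 x hx)).2
    · exact (genChk_spec (all_gen1 x hx)).2
    · exact (genChk_spec (all_gen2 x hx)).2
  par := fun x h0 hx => parChk_spec h0 (all_par x hx)

/-- The generators as maps of `Fin N`. -/
def F (i : Fin 3) (x : Fin N) : Fin N := ofN (tt i.val x.val)

theorem F_val (i : Fin 3) (x : Fin N) : (F i x).val = tt i.val x.val :=
  ofN_val (sys.bd _ _ i.isLt x.isLt)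

theorem F_inv (i : Fin 3) (x : Fin N) : F i (F i x) = x := by
  apply Fin.ext
  rw [F_val, F_val]
  exact sys.inv _ _ i.isLt x.isLt

theorem F_conn (x : Fin N) (h : x.val ≠ 0) : ∃ i, (F i x).val < x.val := by
  have hp := sys.par x.val (Nat.pos_of_ne_zero h) x.isLt
  refine ⟨⟨cc x.val, hp.1⟩, ?_⟩
  rw [F_val]
  exact hp.2

/-- An equivalence on `Fin N` as a relation on numbers. -/
def RelOf (θ : Setoid (Fin N)) (x y : ℕ) : Prop := θ (ofN x) (ofN y)

theorem invRel (θ : Setoid (Fin N)) (hθ : ∀ i x y, θ x y → θ (F i x) (F i y)) :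
    InvRel N 3 tt (RelOf θ) where
  refl x := θ.refl' _
  symm h := θ.symm' h
  trans h1 h2 := θ.trans' h1 h2
  comp i x y hi hx hy h := by
    have h1 := hθ ⟨i, hi⟩ (ofN x) (ofN y) h
    unfold F at h1
    simp only [ofN_val hx, ofN_val hy] at h1
    exact h1

/-- The labels of the seven block systems. -/
def labF (K x : ℕ) : ℕ :=
  match K with
  | 0 => l0 x
  | 1 => l1 x
  | 2 => l2 x
  | 3 => l3 x
  | 4 => l4 x
  | 5 => l5 x
  | _ => l6 x

theorem cc_of {ti l : ℕ → ℕ} {x : ℕ} (h : compatChk ti l x = true) :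
    l (ti x) = l (ti (l x)) := Nat.eq_of_beq_eq_true h

theorem compat_all (K i x : ℕ) (hK : K < 7) (hi : i < 3) (hx : x < N) :
    labF K (tt i x) = labF K (tt i (labF K x)) := by
  interval_cases K
  · rfl
  · interval_cases i
    · exact cc_of (all_c1_0 x hx)
    · exact cc_of (all_c1_1 x hx)
    · exact cc_of (all_c1_2 x hx)
  · interval_cases i
    · exact cc_of (all_c2_0 x hx)
    · exact cc_of (all_c2_1 x hx)
    · exact cc_of (all_c2_2 x hx)
  · interval_cases i
    · exact cc_of (all_c3_0 x hx)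
    · exact cc_of (all_c3_1 x hx)
    · exact cc_of (all_c3_2 x hx)
  · interval_cases i
    · exact cc_of (all_c4_0 x hx)
    · exact cc_of (all_c4_1 x hx)
    · exact cc_of (all_c4_2 x hx)
  · interval_cases i
    · exact cc_of (all_c5_0 x hx)
    · exact cc_of (all_c5_1 x hx)
    · exact cc_of (all_c5_2 x hx)
  · rfl

/-- Labels on `Fin N`. -/
def labL (K : L7) (x : Fin N) : ℕ := labF (K : Fin 7).val x.val

theorem hcompat (K : L7) (i : Fin 3) (x y : Fin N) (h : labL K x = labL K y) :
    labL K (F i x) = labL K (F i y) := by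
  unfold labL at h ⊢
  rw [F_val, F_val, compat_all _ _ _ (Fin.isLt K) i.isLt x.isLt,
    compat_all _ _ y.val (Fin.isLt K) i.isLt y.isLt, h]

theorem rbd (x : ℕ) (hx : x < N) : rT x < 7 := Nat.le_of_ble_eq_true (all_rbd x hx)

/-- The level of a point. -/
def rL (x : Fin N) : L7 := (⟨rT x.val % 7, Nat.mod_lt _ (by decide)⟩ : Fin 7)

theorem rL_val (x : Fin N) : ((rL x : L7) : Fin 7).val = rT x.val := Nat.mod_eq_of_lt (rbd _ x.isLt)

theorem leB_iff : ∀ a b : Fin 7, leB a.val b.val = true ↔ le7 a b := by decide +kernel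

theorem rL_le (w : Fin N) (K : L7) : rL w ≤ K ↔ leK (K : Fin 7).val w.val = true := by
  have h := leB_iff (rL w) K
  have e : (rL w : Fin 7).val = rT w.val := rL_val w
  rw [e] at h
  exact h.symm

theorem rChk_spec {l : ℕ → ℕ} {le : ℕ → Bool} {x : ℕ} (h : rChk l le x = true) :
    l x = l 0 ↔ le x = true := by
  unfold rChk eqB at h
  cases h1 : Nat.beq (l x) (l 0) with
  | true =>
    rw [h1] at h
    have e := Nat.eq_of_beq_eq_true h1
    simpa [e] using h
  | false =>
    rw [h1] at h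
    have e : l x ≠ l 0 := by
      intro e
      rw [e] at h1
      simp at h1
    cases h2 : le x with
    | true => rw [h2] at h; simp at h
    | false => simp [e]

theorem r_all (K x : ℕ) (hK : K < 7) (hx : x < N) : labF K x = labF K 0 ↔ leK K x = true := by
  interval_cases K
  · exact rChk_spec (all_r0 x hx)
  · exact rChk_spec (all_r1 x hx)
  · exact rChk_spec (all_r2 x hx)
  · exact rChk_spec (all_r3 x hx)
  · exact rChk_spec (all_r4 x hx)
  · exact rChk_spec (all_r5 x hx)
  · exact rChk_spec (all_r6 x hx)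

/-- The base point. -/
def o : Fin N := ⟨0, hN⟩

theorem hr (K : L7) (w : Fin N) : labL K w = labL K ⟨0, hN⟩ ↔ rL w ≤ K := by
  rw [rL_le]
  exact r_all _ _ (Fin.isLt K) w.isLt

theorem term_spec : ∀ K, K < 7 → rT (term K) = K ∧ term K < N := by
  intro K hK
  have h := Bool.and_eq_true_iff.1 (of_chain termChk rfl K hK)
  exact ⟨Nat.eq_of_beq_eq_true h.1, Nat.le_of_ble_eq_true h.2⟩

theorem hsurj (K : L7) : ∃ w, rL w = K := by
  have h := term_spec (K : Fin 7).val (Fin.isLt K)
  refine ⟨ofN (term (K : Fin 7).val), ?_⟩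
  apply Fin.ext
  rw [rL_val, ofN_val h.2]
  exact h.1

theorem hP (R : ℕ → ℕ → Prop) (hR : InvRel N 3 tt R) (K : ℕ) (hK : K < 7) (hK0 : K ≠ 0)
    (ht : R 0 (term K)) : ∀ u, u < N → leK K u = true → R 0 u := by
  have hk : 2 ≤ 3 := by decide
  have htN := (term_spec K hK).2
  interval_cases K
  · exact absurd rfl hK0
  · exact block_mem sys hR hk hN fix0 fix1 prog1 _ htN Z1 run1 (leK 1) all_b1 ht
  · exact block_mem sys hR hk hN fix0 fix1 prog2 _ htN Z2 run2 (leK 2) all_b2 ht
  · exact block_mem sys hR hk hN fix0 fix1 prog3 _ htN Z3 run3 (leK 3) all_b3 ht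
  · exact block_mem sys hR hk hN fix0 fix1 prog4 _ htN Z4 run4 (leK 4) all_b4 ht
  · exact block_mem sys hR hk hN fix0 fix1 prog5 _ htN Z5 run5 (leK 5) all_b5 ht
  · intro u hu _
    refine top_mem sys hR hN ?_ u hu
    intro i hi
    interval_cases i
    · rw [fix0]; exact hR.refl 0
    · rw [fix1]; exact hR.refl 0
    · rw [← term6]; exact ht

theorem RelOf_o (θ : Setoid (Fin N)) (w : Fin N) : RelOf θ 0 w.val ↔ θ ⟨0, hN⟩ w := by
  unfold RelOf
  rw [ofN_fin]
  have : ofN 0 = ⟨0, hN⟩ := Fin.ext (ofN_val hN)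
  rw [this]

theorem hcl (θ : Setoid (Fin N)) (hθ : ∀ i x y, θ x y → θ (F i x) (F i y)) (w u : Fin N)
    (hw : θ ⟨0, hN⟩ w) (hu : rL u ≤ rL w) : θ ⟨0, hN⟩ u := by
  have hR := invRel θ hθ
  have h1 := (rL_le u (rL w)).1 hu
  rw [rL_val] at h1
  rw [← RelOf_o]
  by_cases h0 : rT w.val = 0
  · rw [h0] at h1
    have h2 := (r_all 0 u.val (by decide) u.isLt).2 h1
    have h3 : u.val = 0 := h2
    rw [h3]
    exact hR.refl 0
  · have h2 := reach_term sys hR (by decide) fix0 fix1 hi rk rT term all_step w.val w.isLt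
      ((RelOf_o θ w).2 hw) h0
    exact hP _ hR _ (rbd _ w.isLt) h0 h2 _ u.isLt h1

/-- Witnesses for joins. -/
def jwGet (a b : ℕ) : List ((ℕ × ℕ) × (ℕ × ℕ)) → ℕ × ℕ
  | [] => (0, 0)
  | ((a', b'), w) :: l => cond (and (Nat.beq a a') (Nat.beq b b')) w (jwGet a b l)

/-- The witness is correct. -/
noncomputable def jwChk (K K' : Fin 7) : Bool :=
  and (Nat.ble (Nat.add (jwGet K.val K'.val jwL).1 1) N)
    (and (Nat.ble (Nat.add (jwGet K.val K'.val jwL).2 1) N)
      (and (leK K.val (jwGet K.val K'.val jwL).1)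
        (and (leK K'.val (jwGet K.val K'.val jwL).2)
          (Nat.beq (rT (gAux tt cc N (jwGet K.val K'.val jwL).1 (jwGet K.val K'.val jwL).2))
            (sup7 K K').val))))

theorem join_wit : ∀ K K' : Fin 7, sup7 K K' = K ∨ sup7 K K' = K' ∨ jwChk K K' = true := by
  decide +kernel

theorem hjoin (θ : Setoid (Fin N)) (hθ : ∀ i x y, θ x y → θ (F i x) (F i y)) (K K' : L7)
    (hK : ∀ u, rL u ≤ K → θ ⟨0, hN⟩ u) (hK' : ∀ u, rL u ≤ K' → θ ⟨0, hN⟩ u) :
    ∀ u, rL u ≤ K ⊔ K' → θ ⟨0, hN⟩ u := by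
  have hsup : K ⊔ K' = sup7 K K' := rfl
  rcases join_wit K K' with h | h | h
  · rw [hsup, h]; exact hK
  · rw [hsup, h]; exact hK'
  · have hR := invRel θ hθ
    unfold jwChk at h
    simp only [Bool.and_eq_true] at h
    obtain ⟨h1, h2, h3, h4, h5⟩ := h
    have hy : (jwGet (K : Fin 7).val (K' : Fin 7).val jwL).1 < N := Nat.le_of_ble_eq_true h1
    have hz : (jwGet (K : Fin 7).val (K' : Fin 7).val jwL).2 < N := Nat.le_of_ble_eq_true h2
    generalize (jwGet (K : Fin 7).val (K' : Fin 7).val jwL).1 = y at *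
    generalize (jwGet (K : Fin 7).val (K' : Fin 7).val jwL).2 = z at *
    have ry : θ ⟨0, hN⟩ (ofN y) := hK _ ((rL_le _ _).2 (by rw [ofN_val hy]; exact h3))
    have rz : θ ⟨0, hN⟩ (ofN z) := hK' _ ((rL_le _ _).2 (by rw [ofN_val hz]; exact h4))
    have ry' : RelOf θ 0 y := by
      have := (RelOf_o θ (ofN y)).2 ry
      rwa [ofN_val hy] at this
    have rz' : RelOf θ 0 z := by
      have := (RelOf_o θ (ofN z)).2 rz
      rwa [ofN_val hz] at this
    have hg := g_step sys hR hy hz ry' rz'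
    have hgN := g_step_lt sys hy hz
    have hw : θ ⟨0, hN⟩ (ofN (gAux tt cc N y z)) := by
      rw [← RelOf_o, ofN_val hgN]
      exact hg
    intro u hu
    refine hcl θ hθ _ u hw ?_
    have e : rL (ofN (gAux tt cc N y z)) = K ⊔ K' := by
      apply Fin.ext
      rw [rL_val, ofN_val hgN, hsup]
      exact Nat.eq_of_beq_eq_true h5
    rw [e]
    exact hu

end Cert

open Cert in
/-- The seven element lattice `2 × 3` plus a common complement is representable. -/
theorem representable_L7 : Representable L7 :=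
  representable_of_core hN F F_inv F_conn labL hcompat rL hr hsurj hcl hjoin

end Vale.Agent.P183L
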