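import Vale.Agent.P183L.Core
import Vale.Agent.P183L.Prim

/-!
Soundness of a simple checker for small unary algebras: the algebra is given by lists of numbers,
a lattice by a table, and the checker computes principal congruences by merging labels.
-/

namespace Vale.Agent.P183L.Small

open Vale.Agent.P183

universe u

section Core2

variable {L : Type u} [Lattice L] [Finite L] {A : Type} [Finite A] [Nonempty A] {k : ℕ}

/-- A lattice is representable if there are labellings, indexed by the lattice, of a finite set
with unary operations such that every invariant equivalence is the kernel of a labelling. -/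
theorem representable_of_core2 (f : Fin k → A → A) (lab : L → A → ℕ)
    (hcompat : ∀ K i x y, lab K x = lab K y → lab K (f i x) = lab K (f i y))
    (κ : A → A → L)
    (hκ : ∀ K x y, lab K x = lab K y ↔ κ x y ≤ K)
    (hrefl : ∀ K K', (∀ x y, κ x y ≤ K → κ x y ≤ K') → K ≤ K')
    (hcl : ∀ θ : Setoid A, (∀ i x y, θ x y → θ (f i x) (f i y)) →
      ∀ x y a b, θ x y → κ a b ≤ κ x y → θ a b)
    (hjoin : ∀ θ : Setoid A, (∀ i x y, θ x y → θ (f i x) (f i y)) →
      ∀ K K', (∀ a b, κ a b ≤ K → θ a b) → (∀ a b, κ a b ≤ K' → θ a b) →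
        ∀ a b, κ a b ≤ K ⊔ K' → θ a b) :
    Representable L := by
  classical
  have : Fintype L := Fintype.ofFinite L
  let S : L → Setoid A := fun K => Setoid.ker (lab K)
  have hSinv : ∀ K i x y, S K x y → S K (f i x) (f i y) := fun K i x y h => hcompat K i x y h
  have hle : ∀ K K', S K ≤ S K' ↔ K ≤ K' := by
    intro K K'
    constructor
    · intro h
      refine hrefl K K' fun x y hxy => ?_
      have h1 : S K x y := (hκ K x y).2 hxy
      have h2 : S K' x y := h h1
      exact (hκ K' x y).1 h2
    · intro h x y hxy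
      have h1 := (hκ K x y).1 hxy
      exact (hκ K' x y).2 (h1.trans h)
  let Φ : L → {θ : Setoid A // IsCongruence (arU k) (opU f) θ} := fun K =>
    ⟨S K, (isCongruence_iff f (S K)).2 (hSinv K)⟩
  have hΦle : ∀ K K', Φ K ≤ Φ K' ↔ K ≤ K' := fun K K' => hle K K'
  have hsurjΦ : Function.Surjective Φ := by
    rintro ⟨θ, hθ⟩
    have hθ' := (isCongruence_iff f θ).1 hθ
    obtain ⟨x0⟩ := (inferInstance : Nonempty A)
    let P : L → Prop := fun K => ∀ a b, κ a b ≤ K → θ a b
    have hP0 : P (κ x0 x0) := fun a b hab => hcl θ hθ' x0 x0 a b (θ.refl' _) hab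
    have hne : (Finset.univ.filter P).Nonempty := ⟨_, Finset.mem_filter.2 ⟨Finset.mem_univ _, hP0⟩⟩
    let m : L := (Finset.univ.filter P).sup' hne id
    have hPm : P m := by
      apply Finset.sup'_induction hne id (p := P)
      · intro a ha b hb
        exact hjoin θ hθ' a b ha hb
      · intro b hb
        exact (Finset.mem_filter.1 hb).2
    have hlem : ∀ K, P K → K ≤ m := fun K hK =>
      Finset.le_sup' id (Finset.mem_filter.2 ⟨Finset.mem_univ _, hK⟩)
    refine ⟨m, Subtype.ext ?_⟩
    apply le_antisymm
    · intro x y hxy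
      exact hPm x y ((hκ m x y).1 hxy)
    · intro x y hxy
      have hPy : P (κ x y) := fun a b hab => hcl θ hθ' x y a b hxy hab
      exact (hκ m x y).2 (hlem _ hPy)
  have hinj : Function.Injective Φ := by
    intro K K' h
    apply le_antisymm
    · exact (hΦle K K').1 (le_of_eq h)
    · exact (hΦle K' K).1 (le_of_eq h.symm)
  let e : L ≃ {θ : Setoid A // IsCongruence (arU k) (opU f) θ} :=
    Equiv.ofBijective Φ ⟨hinj, hsurjΦ⟩
  refine ⟨A, inferInstance, inferInstance, k, arU k, opU f, ⟨⟨e, ?_⟩⟩⟩
  intro K K'
  exact hΦle K K'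

end Core2

/-- Entry `i` of a list of numbers. -/
def gd (l : List ℕ) (i : ℕ) : ℕ := l.getD i 0

/-- Merge the classes of `a` and `b` in the labelling `F`. -/
def mergeL (F : List ℕ) (a b : ℕ) : List ℕ :=
  F.map (fun v => cond (Nat.beq v (gd F b)) (gd F a) v)

/-- The images of a pair under all operations. -/
def images (ops : List (List ℕ)) (a b : ℕ) : List (ℕ × ℕ) :=
  ops.map (fun o => (gd o a, gd o b))

/-- The merging procedure for the congruence generated by a list of pairs. -/
def cgRun (ops : List (List ℕ)) : ℕ → List ℕ → List (ℕ × ℕ) → List ℕ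
  | 0, F, _ => F
  | _ + 1, F, [] => F
  | n + 1, F, (a, b) :: p =>
    cond (Nat.beq (gd F a) (gd F b)) (cgRun ops n F p)
      (cgRun ops n (mergeL F a b) (images ops a b ++ p))

section Sound

variable {m : ℕ} {ops : List (List ℕ)} {R : ℕ → ℕ → Prop}

/-- An equivalence relation on numbers compatible with the operations below `m`. -/
structure InvU (m : ℕ) (ops : List (List ℕ)) (R : ℕ → ℕ → Prop) : Prop where
  refl : ∀ x, R x x
  symm : ∀ {x y}, R x y → R y x
  trans : ∀ {x y z}, R x y → R y z → R x z
  comp : ∀ o ∈ ops, ∀ a b, a < m → b < m → R a b → R (gd o a) (gd o b)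

/-- Equal labels imply being related. -/
def GoodL (m : ℕ) (R : ℕ → ℕ → Prop) (F : List ℕ) : Prop :=
  F.length = m ∧ ∀ c d, c < m → d < m → gd F c = gd F d → R c d

theorem gd_map (g : ℕ → ℕ) (F : List ℕ) (c : ℕ) (hc : c < F.length) :
    gd (F.map g) c = g (gd F c) := by
  unfold gd
  rw [List.getD_eq_getElem _ _ (by simpa using hc), List.getD_eq_getElem _ _ hc]
  simp

theorem goodL_merge (hR : InvU m ops R) {F : List ℕ} (hF : GoodL m R F) {a b : ℕ} (ha : a < m)
    (hb : b < m) (hab : R a b) : GoodL m R (mergeL F a b) := by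
  obtain ⟨h1, h2⟩ := hF
  refine ⟨by simp [mergeL, h1], ?_⟩
  intro c d hc hd h
  unfold mergeL at h
  rw [gd_map _ _ _ (by omega), gd_map _ _ _ (by omega)] at h
  cases h3 : Nat.beq (gd F c) (gd F b) with
  | true =>
    have e3 := Nat.eq_of_beq_eq_true h3
    cases h4 : Nat.beq (gd F d) (gd F b) with
    | true =>
      have e4 := Nat.eq_of_beq_eq_true h4
      exact h2 c d hc hd (e3.trans e4.symm)
    | false =>
      simp only [h3, h4, cond_true, cond_false] at h
      have r1 : R c b := h2 c b hc hb e3
      have r2 : R a d := h2 a d ha hd h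
      exact hR.trans r1 (hR.trans (hR.symm hab) r2)
  | false =>
    cases h4 : Nat.beq (gd F d) (gd F b) with
    | true =>
      have e4 := Nat.eq_of_beq_eq_true h4
      simp only [h3, h4, cond_true, cond_false] at h
      have r1 : R d b := h2 d b hd hb e4
      have r2 : R c a := h2 c a hc ha h
      exact hR.trans r2 (hR.trans hab (hR.symm r1))
    | false =>
      simp only [h3, h4, cond_false] at h
      exact h2 c d hc hd h

theorem goodL_run (hR : InvU m ops R) (hbd : ∀ o ∈ ops, ∀ a, a < m → gd o a < m)
    (n : ℕ) (F : List ℕ) (p : List (ℕ × ℕ)) (hF : GoodL m R F)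
    (hp : ∀ q ∈ p, q.1 < m ∧ q.2 < m ∧ R q.1 q.2) : GoodL m R (cgRun ops n F p) := by
  induction n generalizing F p with
  | zero => exact hF
  | succ n ih =>
    cases p with
    | nil => exact hF
    | cons q p =>
      obtain ⟨a, b⟩ := q
      have hq := hp (a, b) List.mem_cons_self
      have hp' : ∀ q ∈ p, q.1 < m ∧ q.2 < m ∧ R q.1 q.2 :=
        fun q hq' => hp q (List.mem_cons_of_mem _ hq')
      show GoodL m R (cond (Nat.beq (gd F a) (gd F b)) (cgRun ops n F p)
        (cgRun ops n (mergeL F a b) (images ops a b ++ p)))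
      cases Nat.beq (gd F a) (gd F b) with
      | true => exact ih F p hF hp'
      | false =>
        refine ih _ _ (goodL_merge hR hF hq.1 hq.2.1 hq.2.2) ?_
        intro q' hq'
        rcases List.mem_append.1 hq' with h | h
        · unfold images at h
          obtain ⟨o, ho, rfl⟩ := List.mem_map.1 h
          exact ⟨hbd o ho a hq.1, hbd o ho b hq.2.1, hR.comp o ho a b hq.1 hq.2.1 hq.2.2⟩
        · exact hp' q' h

theorem goodL_range (hR : InvU m ops R) : GoodL m R (List.range m) := by
  refine ⟨by simp, ?_⟩
  intro c d hc hd h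
  unfold gd at h
  rw [List.getD_eq_getElem _ _ (by simpa using hc), List.getD_eq_getElem _ _ (by simpa using hd)] at h
  simp only [List.getElem_range] at h
  rw [h]
  exact hR.refl d

end Sound

/-! ### The checker -/

/-- Every number below `n` satisfies `p`. -/
noncomputable def allB (n : ℕ) (p : ℕ → Bool) : Bool := allR p 0 n

/-- Some number below `n` satisfies `p`. -/
noncomputable def anyB (n : ℕ) (p : ℕ → Bool) : Bool := not (allB n (fun x => not (p x)))

theorem allB_spec {n : ℕ} {p : ℕ → Bool} (h : allB n p = true) : ∀ x, x < n → p x = true :=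
  of_chain h rfl

theorem anyB_spec {n : ℕ} {p : ℕ → Bool} (h : anyB n p = true) : ∃ x, x < n ∧ p x = true := by
  unfold anyB at h
  by_contra hne
  have h1 : allB n (fun x => not (p x)) = true := by
    unfold allB
    rw [allR_iff]
    intro k hk
    have : p (0 + k) ≠ true := fun hk' => hne ⟨0 + k, by omega, hk'⟩
    simpa using this
  rw [h1] at h
  simp at h

/-- The first index where the labels of `x`, `y` agree. -/
def kapL (x y : ℕ) : List (List ℕ) → ℕ
  | [] => 0
  | l :: r => cond (Nat.beq (gd l x) (gd l y)) 0 (kapL x y r + 1)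

/-- Labelling number `K`. -/
def lbl (labs : List (List ℕ)) (K : ℕ) : List ℕ := labs.getD K []

/-- Values stay below `m`. -/
noncomputable def bdChk (m : ℕ) (ops labs : List (List ℕ)) (n : ℕ) : Bool :=
  and (ops.all (fun o => allB m (fun a => Nat.ble (Nat.add (gd o a) 1) m)))
    (allB n (fun K => allB m (fun a => Nat.ble (Nat.add (gd (lbl labs K) a) 1) m)))

/-- The labellings are compatible with the operations. -/
noncomputable def compatChkS (m : ℕ) (ops labs : List (List ℕ)) (n : ℕ) : Bool :=
  allB n (fun K => ops.all (fun o => allB m (fun x =>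
    Nat.beq (gd (lbl labs K) (gd o x)) (gd (lbl labs K) (gd o (gd (lbl labs K) x))))))

/-- The labels are representatives of their classes. -/
noncomputable def idemChk (m : ℕ) (labs : List (List ℕ)) (n : ℕ) : Bool :=
  allB n (fun K => allB m (fun x =>
    Nat.beq (gd (lbl labs K) (gd (lbl labs K) x)) (gd (lbl labs K) x)))

/-- The level of a pair describes the labellings in which it is identified. -/
noncomputable def kapChk (m : ℕ) (labs : List (List ℕ)) (n : ℕ) (t : ℕ → ℕ → Bool) : Bool :=
  allB m (fun x => allB m (fun y =>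
    and (Nat.ble (Nat.add (kapL x y labs) 1) n)
      (allB n (fun K => eqB (Nat.beq (gd (lbl labs K) x) (gd (lbl labs K) y))
        (t (kapL x y labs) K)))))

/-- If `a` is not below `b` then the labelling of `a` identifies some point with its representative
where the labelling of `b` does not. -/
noncomputable def sepChk (m : ℕ) (labs : List (List ℕ)) (n : ℕ) (t : ℕ → ℕ → Bool) : Bool :=
  allB n (fun a => allB n (fun b => or (t a b) (anyB m (fun x =>
    not (Nat.beq (gd (lbl labs b) x) (gd (lbl labs b) (gd (lbl labs a) x)))))))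

/-- The labels of `F` identify each point with its representative for the labelling `l`. -/
noncomputable def covers (m : ℕ) (l F : List ℕ) : Bool :=
  allB m (fun u => Nat.beq (gd F u) (gd F (gd l u)))

/-- The congruence generated by a pair contains the labelling of its level. -/
noncomputable def pairChk (m : ℕ) (ops labs : List (List ℕ)) (fuel : ℕ) : Bool :=
  allB m (fun x => allB m (fun y =>
    covers m (lbl labs (kapL x y labs)) (cgRun ops fuel (List.range m) [(x, y)])))

/-- The pairs of a labelling. -/
def pairsOf (m : ℕ) (l : List ℕ) : List (ℕ × ℕ) := (List.range m).map (fun x => (x, gd l x))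

/-- `c` is the join of `a`, `b` in the table `t`. -/
noncomputable def isLubB (t : ℕ → ℕ → Bool) (n a b c : ℕ) : Bool :=
  allB n (fun d => eqB (t c d) (and (t a d) (t b d)))

/-- Joins in the lattice are joins of equivalences. -/
noncomputable def joinChk (m : ℕ) (ops labs : List (List ℕ)) (n : ℕ) (t : ℕ → ℕ → Bool)
    (fuel : ℕ) : Bool :=
  allB n (fun a => allB n (fun b => allB n (fun c =>
    or (not (isLubB t n a b c)) (or (Nat.beq c a) (or (Nat.beq c b)
      (covers m (lbl labs c) (cgRun ops fuel (List.range m)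
        (pairsOf m (lbl labs a) ++ pairsOf m (lbl labs b)))))))))

/-- All the checks. -/
noncomputable def checkAll (n m : ℕ) (t : ℕ → ℕ → Bool) (ops labs : List (List ℕ)) (fuel : ℕ) :
    Bool :=
  and (bdChk m ops labs n) (and (compatChkS m ops labs n) (and (idemChk m labs n)
    (and (kapChk m labs n t) (and (sepChk m labs n t)
      (and (pairChk m ops labs fuel) (joinChk m ops labs n t fuel))))))

theorem eqB_spec {a b : Bool} (h : eqB a b = true) : a = b := by
  cases a <;> cases b <;> simp_all [eqB]

theorem eqB_of_iff {x y z : Bool} (h : x = true ↔ (y = true ∧ z = true)) : eqB x (and y z) = true := by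
  cases x <;> cases y <;> cases z <;> simp_all [eqB]

section Main

variable {L : Type u} [Lattice L] [Finite L] {n m : ℕ} {t : ℕ → ℕ → Bool}
  {ops labs : List (List ℕ)} {fuel : ℕ}

/-- Reduction modulo `m`. -/
def ofN (hm : 0 < m) (x : ℕ) : Fin m := ⟨x % m, Nat.mod_lt _ hm⟩

theorem ofN_val (hm : 0 < m) {x : ℕ} (h : x < m) : (ofN hm x).val = x := Nat.mod_eq_of_lt h

theorem ofN_fin (hm : 0 < m) (x : Fin m) : ofN hm x.val = x := Fin.ext (ofN_val hm x.isLt)

/-- The operations. -/
def opF (hm : 0 < m) (ops : List (List ℕ)) (i : Fin ops.length) (x : Fin m) : Fin m :=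
  ofN hm (gd ops[i] x.val)

/-- The relation on numbers attached to an equivalence on `Fin m`. -/
def RelF (hm : 0 < m) (θ : Setoid (Fin m)) (x y : ℕ) : Prop := θ (ofN hm x) (ofN hm y)

theorem invU_of (hm : 0 < m) (θ : Setoid (Fin m))
    (hθ : ∀ i x y, θ x y → θ (opF hm ops i x) (opF hm ops i y)) : InvU m ops (RelF hm θ) where
  refl _ := θ.refl' _
  symm h := θ.symm' h
  trans h1 h2 := θ.trans' h1 h2
  comp o ho a b ha hb h := by
    obtain ⟨i, hi, rfl⟩ := List.getElem_of_mem ho
    have h1 := hθ ⟨i, hi⟩ _ _ h
    unfold opF at h1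
    simp only [ofN_val hm ha, ofN_val hm hb] at h1
    exact h1

theorem representable_of_check (hm : 0 < m) (e : L ≃ Fin n)
    (he : ∀ x y : L, x ≤ y ↔ t (e x) (e y) = true)
    (hchk : checkAll n m t ops labs fuel = true) : Representable L := by
  unfold checkAll at hchk
  simp only [Bool.and_eq_true] at hchk
  obtain ⟨hbd, hcompat, hidem, hkap, hsep, hpair, hjoin⟩ := hchk
  unfold bdChk at hbd
  simp only [Bool.and_eq_true, List.all_eq_true] at hbd
  obtain ⟨hbd1, hbd2⟩ := hbd
  have bdo : ∀ o ∈ ops, ∀ a, a < m → gd o a < m := fun o ho a ha =>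
    Nat.le_of_ble_eq_true (allB_spec (hbd1 o ho) a ha)
  have bdl : ∀ K, K < n → ∀ a, a < m → gd (lbl labs K) a < m := fun K hK a ha =>
    Nat.le_of_ble_eq_true (allB_spec (allB_spec hbd2 K hK) a ha)
  have hne : Nonempty (Fin m) := ⟨⟨0, hm⟩⟩
  have kap_spec : ∀ x y, x < m → y < m → kapL x y labs < n ∧ ∀ K, K < n →
      (gd (lbl labs K) x = gd (lbl labs K) y ↔ t (kapL x y labs) K = true) := by
    intro x y hx hy
    have h1 := allB_spec (allB_spec hkap x hx) y hy
    have h2 := Bool.and_eq_true_iff.1 h1
    refine ⟨Nat.le_of_ble_eq_true h2.1, fun K hK => ?_⟩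
    have h3 := eqB_spec (allB_spec h2.2 K hK)
    rw [← h3]
    constructor
    · intro h
      rw [h]
      exact Nat.beq_refl _
    · exact Nat.eq_of_beq_eq_true
  let lab : L → Fin m → ℕ := fun K x => gd (lbl labs (e K).val) x.val
  let κ : Fin m → Fin m → L := fun x y =>
    e.symm ⟨kapL x.val y.val labs, (kap_spec _ _ x.isLt y.isLt).1⟩
  have hκe : ∀ x y : Fin m, (e (κ x y)).val = kapL x.val y.val labs := by
    intro x y
    simp [κ]
  have hκ : ∀ K x y, lab K x = lab K y ↔ κ x y ≤ K := by
    intro K x y
    rw [he, hκe]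
    exact (kap_spec _ _ x.isLt y.isLt).2 _ (e K).isLt
  have opv : ∀ (i : Fin ops.length) (x : Fin m), (opF hm ops i x).val = gd ops[i] x.val := by
    intro i x
    exact ofN_val hm (bdo _ (List.getElem_mem _) _ x.isLt)
  -- the relation attached to an invariant equivalence covers labellings
  have cov : ∀ (θ : Setoid (Fin m)), (∀ i x y, θ x y → θ (opF hm ops i x) (opF hm ops i y)) →
      ∀ (p : List (ℕ × ℕ)) (K : ℕ), K < n →
        (∀ q ∈ p, q.1 < m ∧ q.2 < m ∧ RelF hm θ q.1 q.2) →
        covers m (lbl labs K) (cgRun ops fuel (List.range m) p) = true →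
        ∀ a b : Fin m, gd (lbl labs K) a.val = gd (lbl labs K) b.val → θ a b := by
    intro θ hθ p K hK hp hc a b hab
    have hR := invU_of (ops := ops) hm θ hθ
    have hG := goodL_run hR bdo fuel (List.range m) p (goodL_range hR) hp
    have h1 : ∀ u, u < m → RelF hm θ u (gd (lbl labs K) u) := by
      intro u hu
      exact hG.2 u _ hu (bdl K hK u hu) (Nat.eq_of_beq_eq_true (allB_spec hc u hu))
    have h2 := h1 a.val a.isLt
    have h3 := h1 b.val b.isLt
    rw [hab] at h2
    have h4 := hR.trans h2 (hR.symm h3)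
    unfold RelF at h4
    rwa [ofN_fin, ofN_fin] at h4
  refine representable_of_core2 (k := ops.length) (opF hm ops) lab ?_ κ hκ ?_ ?_ ?_
  · -- compatibility
    intro K i x y h
    have hc := allB_spec hcompat (e K).val (e K).isLt
    rw [List.all_eq_true] at hc
    have h1 := allB_spec (hc ops[i] (List.getElem_mem _))
    have h2 := Nat.eq_of_beq_eq_true (h1 x.val x.isLt)
    have h3 := Nat.eq_of_beq_eq_true (h1 y.val y.isLt)
    show gd (lbl labs (e K).val) (opF hm ops i x).val = gd (lbl labs (e K).val) (opF hm ops i y).val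
    rw [opv, opv, h2, h3]
    have h' : gd (lbl labs (e K).val) x.val = gd (lbl labs (e K).val) y.val := h
    rw [h']
  · -- separation
    intro K K' h
    rw [he]
    have h1 := allB_spec (allB_spec hsep (e K).val (e K).isLt) (e K').val (e K').isLt
    rcases Bool.or_eq_true_iff.1 h1 with h2 | h2
    · exact h2
    · exfalso
      obtain ⟨x, hx, h3⟩ := anyB_spec h2
      have hy := bdl _ (e K).isLt x hx
      have h4 : κ ⟨x, hx⟩ ⟨_, hy⟩ ≤ K' := by
        apply h
        apply (hκ K _ _).1
        show gd (lbl labs (e K).val) x = gd (lbl labs (e K).val) (gd (lbl labs (e K).val) x)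
        exact (Nat.eq_of_beq_eq_true (allB_spec (allB_spec hidem _ (e K).isLt) x hx)).symm
      have h5 : gd (lbl labs (e K').val) x = gd (lbl labs (e K').val) (gd (lbl labs (e K).val) x) :=
        (hκ K' _ _).2 h4
      rw [h5, Nat.beq_refl] at h3
      simp at h3
  · -- principal congruences
    intro θ hθ x y a b hxy hab
    have hkn := (kap_spec _ _ x.isLt y.isLt).1
    have h1 := (hκ (κ x y) a b).2 hab
    have h2 : gd (lbl labs (kapL x.val y.val labs)) a.val = gd (lbl labs (kapL x.val y.val labs)) b.val := by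
      have h3 : gd (lbl labs (e (κ x y)).val) a.val = gd (lbl labs (e (κ x y)).val) b.val := h1
      rwa [hκe] at h3
    refine cov θ hθ [(x.val, y.val)] _ hkn ?_ (allB_spec (allB_spec hpair x.val x.isLt) y.val y.isLt) a b h2
    intro q hq
    rw [List.mem_singleton] at hq
    subst hq
    refine ⟨x.isLt, y.isLt, ?_⟩
    unfold RelF
    simp only [ofN_fin]
    exact hxy
  · -- joins
    intro θ hθ K K' hK hK' a b hab
    have h1 := allB_spec (allB_spec (allB_spec hjoin (e K).val (e K).isLt) (e K').val (e K').isLt)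
      (e (K ⊔ K')).val (e (K ⊔ K')).isLt
    have hlub : isLubB t n (e K).val (e K').val (e (K ⊔ K')).val = true := by
      unfold isLubB allB
      rw [allR_iff]
      intro k hk
      have hk' : 0 + k < n := by omega
      have hd : ∀ z : L, t (e z).val (0 + k) = true ↔ z ≤ e.symm ⟨0 + k, hk'⟩ := by
        intro z
        have := he z (e.symm ⟨0 + k, hk'⟩)
        simp only [Equiv.apply_symm_apply] at this
        exact this.symm
      apply eqB_of_iff
      rw [hd, hd, hd]
      exact sup_le_iff
    rw [hlub] at h1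
    simp only [Bool.not_true, Bool.false_or, Bool.or_eq_true] at h1
    rcases h1 with h2 | h2 | h2
    · have h3 : K ⊔ K' = K := e.injective (Fin.ext (Nat.eq_of_beq_eq_true h2))
      rw [h3] at hab
      exact hK a b hab
    · have h3 : K ⊔ K' = K' := e.injective (Fin.ext (Nat.eq_of_beq_eq_true h2))
      rw [h3] at hab
      exact hK' a b hab
    · have h3 : ∀ (K0 : L), (∀ a b, κ a b ≤ K0 → θ a b) →
          ∀ q ∈ pairsOf m (lbl labs (e K0).val), q.1 < m ∧ q.2 < m ∧ RelF hm θ q.1 q.2 := by
        intro K0 hK0 q hq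
        unfold pairsOf at hq
        obtain ⟨x, hx, rfl⟩ := List.mem_map.1 hq
        have hxm : x < m := List.mem_range.1 hx
        have hb0 := bdl _ (e K0).isLt x hxm
        refine ⟨hxm, hb0, ?_⟩
        have h4 : κ ⟨x, hxm⟩ ⟨gd (lbl labs (e K0).val) x, hb0⟩ ≤ K0 := by
          apply (hκ K0 _ _).1
          show gd (lbl labs (e K0).val) x = gd (lbl labs (e K0).val) (gd (lbl labs (e K0).val) x)
          exact (Nat.eq_of_beq_eq_true (allB_spec (allB_spec hidem _ (e K0).isLt) x hxm)).symm
        have h5 := hK0 _ _ h4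
        unfold RelF
        have e1 : ofN hm x = ⟨x, hxm⟩ := Fin.ext (ofN_val hm hxm)
        have e2 : ofN hm (gd (lbl labs (e K0).val) x) = ⟨_, hb0⟩ := Fin.ext (ofN_val hm hb0)
        simp only [e1, e2]
        exact h5
      refine cov θ hθ (pairsOf m (lbl labs (e K).val) ++ pairsOf m (lbl labs (e K').val)) _
        (e (K ⊔ K')).isLt ?_ h2 a b ((hκ (K ⊔ K') a b).2 hab)
      intro q hq
      rcases List.mem_append.1 hq with h4 | h4
      · exact h3 K hK q h4
      · exact h3 K' hK' q h4

end Main

end Vale.Agent.P183L.Small
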